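import Vale.Agent.P254.Bas

namespace Vale.Agent.P254

open MeasureTheory Matrix

variable {ι κ : Type} [Fintype ι] [Fintype κ] [DecidableEq ι] [DecidableEq κ]

/-- The affine map `x ↦ T x + c`. -/
def aff (T : Matrix κ ι ℝ) (c : κ → ℝ) (x : ι → ℝ) : κ → ℝ := T *ᵥ x + c

theorem integral_aff (e : ι ≃ κ) (T : Matrix κ ι ℝ) (hT : (T.submatrix e id).det ≠ 0) (c : κ → ℝ)
    {K : Set (ι → ℝ)} (hK : MeasurableSet K) (f : (κ → ℝ) → ℝ) :
    ∫ y in aff T c '' K, f y = |(T.submatrix e id).det| * ∫ x in K, f (aff T c x) := by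
  let S : Matrix ι ι ℝ := T.submatrix e id
  let r := MeasurableEquiv.arrowCongr' e (MeasurableEquiv.refl ℝ)
  have hr : MeasurePreserving r := volume_preserving_arrowCongr' e _ (MeasurePreserving.id _)
  let A : (ι → ℝ) →L[ℝ] (ι → ℝ) := LinearMap.toContinuousLinearMap (Matrix.toLin' S)
  let g : (ι → ℝ) → (ι → ℝ) := fun x => A x + fun i => c (e i)
  have hrg : ∀ x, r (g x) = aff T c x := by
    intro x
    funext k
    show g x (e.symm k) = _
    simp [g, A, S, aff, mulVec, dotProduct]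
  have hdet : A.det = S.det := by
    simp [A, ContinuousLinearMap.det]
  have hinj : Set.InjOn g K := by
    intro x _ y _ hxy
    have h1 : S *ᵥ x = S *ᵥ y := add_right_cancel hxy
    exact mulVec_injective_iff_isUnit.2 ((isUnit_iff_isUnit_det S).2 (isUnit_iff_ne_zero.2 hT)) h1
  have him : aff T c '' K = r '' (g '' K) := by
    rw [Set.image_image]
    simp only [hrg]
  rw [him, hr.setIntegral_image_emb r.measurableEmbedding,
    integral_image_eq_integral_abs_det_fderiv_smul volume hK (f' := fun _ => A)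
      (fun x _ => (A.hasFDerivAt.add_const _).hasFDerivWithinAt) hinj]
  simp only [hdet, smul_eq_mul]
  rw [integral_const_mul]
  simp only [← hrg]
  rfl

theorem vol_aff (e : ι ≃ κ) (T : Matrix κ ι ℝ) (hT : (T.submatrix e id).det ≠ 0) (c : κ → ℝ)
    {K : Set (ι → ℝ)} (hK : MeasurableSet K) :
    vol (aff T c '' K) = |(T.submatrix e id).det| * vol K := by
  have h := integral_aff e T hT c hK (fun _ => (1 : ℝ))
  rw [setIntegral_const, setIntegral_const, smul_eq_mul, smul_eq_mul, mul_one, mul_one] at h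
  exact h

/-- `aff` as an affine map. -/
def Aff_map (T : Matrix κ ι ℝ) (c : κ → ℝ) : (ι → ℝ) →ᵃ[ℝ] (κ → ℝ) :=
  T.mulVecLin.toAffineMap + AffineMap.const ℝ (ι → ℝ) c

theorem Aff_map_coe (T : Matrix κ ι ℝ) (c : κ → ℝ) : ⇑(Aff_map T c) = aff T c := by
  funext x
  simp [Aff_map, aff]

theorem hull_aff (T : Matrix κ ι ℝ) (c : κ → ℝ) (S : Set (ι → ℝ)) :
    aff T c '' convexHull ℝ S = convexHull ℝ (aff T c '' S) := by
  rw [← Aff_map_coe]
  exact AffineMap.image_convexHull _ _

theorem body_aff (e : ι ≃ κ) (T : Matrix κ ι ℝ) (hT : (T.submatrix e id).det ≠ 0) (c : κ → ℝ)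
    {K : Set (ι → ℝ)} (hK : Body K) : Body (aff T c '' K) := by
  have hc : Continuous (aff T c) := by
    unfold aff
    fun_prop
  have hv : Convex ℝ (aff T c '' K) := by
    rw [← Aff_map_coe]
    exact hK.2.1.affine_image _
  refine ⟨hK.1.image hc, hv, int_of_vol hv ?_⟩
  rw [vol_aff e T hT c hK.1.measurableSet]
  exact mul_pos (abs_pos.2 hT) hK.vol_pos

theorem det_ne_of_int (e : ι ≃ κ) (T : Matrix κ ι ℝ) (c : κ → ℝ) {K : Set (ι → ℝ)}
    (h : (interior (aff T c '' K)).Nonempty) : (T.submatrix e id).det ≠ 0 := by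
  obtain ⟨y, hy⟩ := h
  have h1 : (interior (LinearMap.range T.mulVecLin : Set (κ → ℝ))).Nonempty := by
    refine ⟨y - c, mem_interior_iff_mem_nhds.2 ?_⟩
    have hc : Continuous fun z : κ → ℝ => z + c := by fun_prop
    have h2 : (fun z : κ → ℝ => z + c) ⁻¹' (aff T c '' K) ∈ nhds (y - c) :=
      hc.continuousAt.preimage_mem_nhds (by simpa using mem_interior_iff_mem_nhds.1 hy)
    refine Filter.mem_of_superset h2 ?_
    rintro z ⟨x, _, hx⟩
    exact ⟨x, add_right_cancel hx⟩
  have h3 := Submodule.eq_top_of_nonempty_interior' _ h1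
  have h4 : Function.Surjective (T.submatrix e id).mulVec := by
    intro w
    obtain ⟨x, hx⟩ := LinearMap.range_eq_top.1 h3 (fun k => w (e.symm k))
    refine ⟨x, ?_⟩
    funext i
    have := congrFun hx (e i)
    simpa [mulVec, dotProduct] using this
  exact isUnit_iff_ne_zero.1 ((isUnit_iff_isUnit_det _).1 (mulVec_surjective_iff_isUnit.1 h4))

end Vale.Agent.P254
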