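import Vale.Agent.P254.Aff

namespace Vale.Agent.P254

open MeasureTheory Matrix

variable {ι κ : Type} [Fintype ι] [Fintype κ] [DecidableEq ι] [DecidableEq κ]

set_option linter.unusedSectionVars false

theorem AffR.cen_aff (e : ι ≃ κ) (T : Matrix κ ι ℝ) (hT : (T.submatrix e id).det ≠ 0) (c : κ → ℝ)
    {K : Set (ι → ℝ)} (hK : Body K) (k : κ) : cen (aff T c '' K) k = aff T c (cen K) k := by
  have hm := hK.1.measurableSet
  have hV := hK.vol_pos.ne'
  have hd := abs_ne_zero.2 hT
  have hi : ∀ i, IntegrableOn (fun x : ι → ℝ => T k i * x i) K := fun i =>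
    (show Continuous fun x : ι → ℝ => T k i * x i by fun_prop).continuousOn.integrableOn_compact hK.1
  have h1 : ∫ x in K, aff T c x k = ∑ i, T k i * (∫ x in K, x i) + vol K * c k := by
    simp only [aff, Pi.add_apply, mulVec, dotProduct]
    rw [integral_add (integrable_finsetSum _ fun i _ => hi i)
      (integrableOn_const hK.1.measure_ne_top), integral_finsetSum _ fun i _ => hi i,
      setIntegral_const]
    simp only [integral_const_mul]
    rfl
  rw [cen, vol_aff e T hT c hm, integral_aff e T hT c hm fun y => y k, h1]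
  simp only [aff, Pi.add_apply, mulVec, dotProduct, cen]
  have h2 : ∑ i, T k i * ((vol K)⁻¹ * ∫ x in K, x i) =
      (vol K)⁻¹ * ∑ i, T k i * (∫ x in K, x i) := by
    rw [Finset.mul_sum]
    exact Finset.sum_congr rfl fun i _ => by ring
  rw [h2]
  field_simp

theorem AffR.cov_aff (e : ι ≃ κ) (T : Matrix κ ι ℝ) (hT : (T.submatrix e id).det ≠ 0) (c : κ → ℝ)
    {K : Set (ι → ℝ)} (hK : Body K) : cov (aff T c '' K) = T * cov K * Tᵀ := by
  have hm := hK.1.measurableSet
  have hV := hK.vol_pos.ne'
  have hd := abs_ne_zero.2 hT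
  ext k l
  have h0 : ∀ x k, aff T c x k - cen (aff T c '' K) k = ∑ i, T k i * (x i - cen K i) := by
    intro x k
    rw [AffR.cen_aff e T hT c hK]
    simp only [aff, Pi.add_apply, mulVec, dotProduct, mul_sub, Finset.sum_sub_distrib]
    ring
  have hi : ∀ i j, IntegrableOn
      (fun x : ι → ℝ => T k i * T l j * ((x i - cen K i) * (x j - cen K j))) K := fun i j =>
    (show Continuous fun x : ι → ℝ => T k i * T l j * ((x i - cen K i) * (x j - cen K j)) by
      fun_prop).continuousOn.integrableOn_compact hK.1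
  have h1 : ∫ x in K, (aff T c x k - cen (aff T c '' K) k) * (aff T c x l - cen (aff T c '' K) l) =
      ∑ j, ∑ i, T k i * T l j * ∫ x in K, (x i - cen K i) * (x j - cen K j) := by
    have h2 : ∀ x : ι → ℝ,
        (aff T c x k - cen (aff T c '' K) k) * (aff T c x l - cen (aff T c '' K) l) =
        ∑ j, ∑ i, T k i * T l j * ((x i - cen K i) * (x j - cen K j)) := by
      intro x
      rw [h0, h0, Finset.sum_mul_sum, Finset.sum_comm]
      exact Finset.sum_congr rfl fun j _ => Finset.sum_congr rfl fun i _ => by ring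
    simp only [h2]
    rw [integral_finsetSum _ fun j _ => integrable_finsetSum _ fun i _ => hi i j]
    refine Finset.sum_congr rfl fun j _ => ?_
    rw [integral_finsetSum _ fun i _ => hi i j]
    simp only [integral_const_mul]
  rw [cov, of_apply, vol_aff e T hT c hm, integral_aff e T hT c hm fun y =>
    (y k - cen (aff T c '' K) k) * (y l - cen (aff T c '' K) l), h1, ← mul_assoc,
    show (|(T.submatrix e id).det| * vol K)⁻¹ * |(T.submatrix e id).det| = (vol K)⁻¹ by
      field_simp]
  simp only [Matrix.mul_apply, transpose_apply, cov, of_apply, Finset.mul_sum, Finset.sum_mul]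
  exact Finset.sum_congr rfl fun j _ => Finset.sum_congr rfl fun i _ => by ring

theorem AffR.of_range (v : Option ι → ι → ℝ)
    (h : (interior (convexHull ℝ (Set.range v))).Nonempty) :
    IsSimplex (convexHull ℝ (Set.range v)) := by
  refine ⟨v, ?_, rfl⟩
  rw [affineIndependent_iff_finrank_vectorSpan_eq ℝ v Fintype.card_option,
    AffineSubspace.vectorSpan_eq_top_of_affineSpan_eq_top ℝ _ _
      (interior_convexHull_nonempty_iff_affineSpan_eq_top.1 h), finrank_top,
    Module.finrank_fintype_fun_eq_card]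

theorem R_aff (e : ι ≃ κ) (T : Matrix κ ι ℝ) (hT : (T.submatrix e id).det ≠ 0) (c : κ → ℝ)
    {K : Set (ι → ℝ)} (hK : Body K) : R (aff T c '' K) = R K := by
  have h1 : (T * cov K * Tᵀ).det = (T.submatrix e id).det ^ 2 * (cov K).det := by
    have h2 : (T * cov K * Tᵀ).submatrix e e =
        T.submatrix e id * cov K * (T.submatrix e id)ᵀ := rfl
    rw [← det_submatrix_equiv_self e, h2, det_mul, det_mul, det_transpose]
    ring
  rw [R, R, AffR.cov_aff e T hT c hK, vol_aff e T hT c hK.1.measurableSet, h1, mul_pow, sq_abs,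
    mul_div_mul_left _ _ (pow_ne_zero 2 hT)]

theorem simplex_of_card (P : Finset (ι → ℝ)) (hP : P.card ≤ Fintype.card ι + 1)
    (h : (interior (convexHull ℝ (P : Set (ι → ℝ)))).Nonempty) :
    IsSimplex (convexHull ℝ (P : Set (ι → ℝ))) := by
  have hne : Nonempty P := by
    obtain ⟨x, hx⟩ := h
    obtain ⟨y, hy⟩ := convexHull_nonempty_iff.1 ⟨x, interior_subset hx⟩
    exact ⟨⟨y, hy⟩⟩
  obtain ⟨f⟩ : Nonempty (P ↪ Option ι) :=
    Function.Embedding.nonempty_of_card_le (by rwa [Fintype.card_coe, Fintype.card_option])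
  have h1 : Set.range (Subtype.val ∘ Function.invFun f) = (P : Set (ι → ℝ)) := by
    rw [(Function.invFun_surjective f.injective).range_comp, Subtype.range_coe_subtype]
    rfl
  rw [← h1] at h ⊢
  exact AffR.of_range _ h

theorem IsSimplex.body {S : Set (ι → ℝ)} (h : IsSimplex S) : Body S := by
  obtain ⟨v, hv, rfl⟩ := h
  refine ⟨(Set.finite_range v).isCompact_convexHull ℝ, convex_convexHull ℝ _, ?_⟩
  rw [interior_convexHull_nonempty_iff_affineSpan_eq_top,
    hv.affineSpan_eq_top_iff_card_eq_finrank_add_one, Fintype.card_option,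
    Module.finrank_fintype_fun_eq_card]

theorem simplex_aff (e : ι ≃ κ) (T : Matrix κ ι ℝ) (hT : (T.submatrix e id).det ≠ 0) (c : κ → ℝ)
    {K : Set (ι → ℝ)} (hK : IsSimplex K) : IsSimplex (aff T c '' K) := by
  have hb := (body_aff e T hT c hK.body).2.2
  obtain ⟨v, -, rfl⟩ := hK
  have h1 : aff T c '' Set.range v = Set.range ((aff T c ∘ v) ∘ e.symm.optionCongr) := by
    rw [e.symm.optionCongr.surjective.range_comp, Set.range_comp]
  rw [hull_aff, h1] at hb ⊢
  exact AffR.of_range _ hb

end Vale.Agent.P254
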