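import Vale.Agent.P254.Defs

namespace Vale.Agent.P254

open MeasureTheory Matrix

variable {ι κ : Type} [Fintype ι] [Fintype κ]

/-- `L ^ (2 n)`. -/
noncomputable def R [DecidableEq ι] (K : Set (ι → ℝ)) : ℝ := (cov K).det / vol K ^ 2

/-- The value of `R` on simplices. -/
noncomputable def cst (n : ℕ) : ℝ :=
  (n.factorial : ℝ) ^ 2 / (((n : ℝ) + 1) * (((n : ℝ) + 1) * ((n : ℝ) + 2)) ^ n)

/-- Normalised centroid. -/
noncomputable def sv (K : Set (ι → ℝ)) : ι → ℝ := fun i => ((Fintype.card ι : ℝ) + 1) * cen K i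

/-- Normalised second moment matrix about the origin. -/
noncomputable def Am (K : Set (ι → ℝ)) : Matrix ι ι ℝ := Matrix.of fun i j =>
  ((Fintype.card ι : ℝ) + 1) * ((Fintype.card ι : ℝ) + 2) * ((vol K)⁻¹ * ∫ x in K, x i * x j) -
    sv K i * sv K j

/-- Normalised determinant. -/
noncomputable def Dq [DecidableEq ι] (A : Matrix ι ι ℝ) (s : ι → ℝ) : ℝ :=
  ((Fintype.card ι : ℝ) + 1) * (A - ((Fintype.card ι : ℝ) + 1)⁻¹ • vecMulVec s s).det

theorem Body.vol_pos {K : Set (ι → ℝ)} (h : Body K) : 0 < vol K := by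
  exact ENNReal.toReal_pos (Measure.measure_pos_of_nonempty_interior _ h.2.2).ne'
    h.1.measure_lt_top.ne

theorem int_of_vol {K : Set (ι → ℝ)} (hc : Convex ℝ K) (h : 0 < vol K) :
    (interior K).Nonempty := by
  have h0 : volume K ≠ 0 := by
    intro h1
    simp [vol, h1] at h
  have hne : K.Nonempty := nonempty_of_measure_ne_zero h0
  by_contra hcon
  rw [hc.interior_nonempty_iff_affineSpan_eq_top] at hcon
  exact h0 (measure_mono_null (subset_affineSpan ℝ K)
    (Measure.addHaar_affineSubspace volume _ hcon))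

theorem Bas_int {K : Set (ι → ℝ)} (h : Body K) {f : (ι → ℝ) → ℝ} (hf : Continuous f) :
    IntegrableOn f K volume := hf.continuousOn.integrableOn_compact h.1

theorem Bas_cen {K : Set (ι → ℝ)} (h : Body K) (i : ι) : ∫ x in K, x i = vol K * cen K i := by
  unfold cen
  rw [← mul_assoc, mul_inv_cancel₀ h.vol_pos.ne', one_mul]

theorem Bas_cov {K : Set (ι → ℝ)} (h : Body K) (i j : ι) :
    cov K i j = (vol K)⁻¹ * (∫ x in K, x i * x j) - cen K i * cen K j := by
  have h1 : ∀ x : ι → ℝ, (x i - cen K i) * (x j - cen K j)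
      = (x i * x j - cen K j * x i) - (cen K i * x j - cen K i * cen K j) := fun x => by ring
  have h2 : ∫ x in K, (x i - cen K i) * (x j - cen K j)
      = (∫ x in K, x i * x j) - vol K * (cen K i * cen K j) := by
    simp_rw [h1]
    rw [integral_sub (Bas_int h (by fun_prop)) (Bas_int h (by fun_prop)),
      integral_sub (Bas_int h (by fun_prop)) (Bas_int h (by fun_prop)),
      integral_sub (Bas_int h (by fun_prop)) (Bas_int h (by fun_prop)),
      integral_const_mul, integral_const_mul, Bas_cen h, Bas_cen h, setIntegral_const]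
    have : volume.real K = vol K := rfl
    rw [this, smul_eq_mul]
    ring
  show (vol K)⁻¹ * ∫ x in K, (x i - cen K i) * (x j - cen K j) = _
  rw [h2, mul_sub, ← mul_assoc, inv_mul_cancel₀ h.vol_pos.ne', one_mul]

theorem Body.covA {K : Set (ι → ℝ)} (h : Body K) :
    (((Fintype.card ι : ℝ) + 1) * ((Fintype.card ι : ℝ) + 2)) • cov K =
      Am K - ((Fintype.card ι : ℝ) + 1)⁻¹ • vecMulVec (sv K) (sv K) := by
  ext i j
  have hn : ((Fintype.card ι : ℝ) + 1) ≠ 0 := by positivity
  simp only [Matrix.smul_apply, Matrix.sub_apply, Bas_cov h, Am, sv, Matrix.of_apply,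
    vecMulVec_apply, smul_eq_mul]
  field_simp
  ring

theorem Body.covPD {K : Set (ι → ℝ)} (h : Body K) : (cov K).PosDef := by
  classical
  refine Matrix.PosDef.of_dotProduct_mulVec_pos ?_ ?_
  · ext i j
    simp only [conjTranspose_apply, star_trivial, cov, Matrix.of_apply]
    simp_rw [mul_comm (_ - cen K j)]
  · intro φ hφ
    let g : (ι → ℝ) → ℝ := fun x => ∑ i, φ i * (x i - cen K i)
    have hg : Continuous g := by fun_prop
    have h1 : star φ ⬝ᵥ (cov K *ᵥ φ) = (vol K)⁻¹ * ∫ x in K, g x ^ 2 := by
      have h2 : ∀ x, g x ^ 2 = ∑ i, ∑ j, φ i * φ j * ((x i - cen K i) * (x j - cen K j)) := by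
        intro x
        simp only [g, sq, Finset.sum_mul_sum]
        refine Finset.sum_congr rfl fun i _ => Finset.sum_congr rfl fun j _ => by ring
      simp_rw [h2]
      rw [integral_finset_sum _ fun i _ => Bas_int h (by fun_prop), Finset.mul_sum]
      simp only [star_trivial, dotProduct, mulVec, cov, Matrix.of_apply]
      refine Finset.sum_congr rfl fun i _ => ?_
      rw [integral_finset_sum _ fun j _ => Bas_int h (by fun_prop), Finset.mul_sum, Finset.mul_sum]
      refine Finset.sum_congr rfl fun j _ => ?_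
      rw [integral_const_mul]
      ring
    rw [h1]
    refine mul_pos (inv_pos.2 h.vol_pos) ?_
    rw [setIntegral_pos_iff_support_of_nonneg_ae (Filter.Eventually.of_forall fun x => sq_nonneg _)
      (Bas_int h (hg.pow 2))]
    obtain ⟨i, hi⟩ := Function.ne_iff.1 hφ
    obtain ⟨x, hx⟩ := h.2.2
    have hop : IsOpen (Function.support (fun x => g x ^ 2) ∩ interior K) :=
      ((hg.pow 2).isOpen_support).inter isOpen_interior
    have hne : (Function.support (fun x => g x ^ 2) ∩ interior K).Nonempty := by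
      by_cases hx0 : g x = 0
      · have hc : Continuous fun t : ℝ => x + t • (Pi.single i 1 : ι → ℝ) := by fun_prop
        have hev : ∀ᶠ t in nhds (0 : ℝ), x + t • (Pi.single i 1 : ι → ℝ) ∈ interior K :=
          hc.continuousAt.eventually_mem (isOpen_interior.mem_nhds (by simpa using hx))
        obtain ⟨t, ht1, ht2⟩ := ((hev.filter_mono nhdsWithin_le_nhds).and
          (self_mem_nhdsWithin (a := (0 : ℝ)) (s := {0}ᶜ))).exists
        refine ⟨_, ?_, ht1⟩
        have h3 : g (x + t • (Pi.single i 1 : ι → ℝ)) = g x + φ i * t := by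
          simp only [g, Pi.add_apply, Pi.smul_apply, smul_eq_mul]
          have : ∀ k, φ k * (x k + t * (Pi.single i 1 : ι → ℝ) k - cen K k)
              = φ k * (x k - cen K k) + (if k = i then φ i * t else 0) := by
            intro k
            by_cases hk : k = i
            · subst hk
              simp
              ring
            · simp [hk]
          simp [this, Finset.sum_add_distrib]
        rw [Function.mem_support, h3, hx0, zero_add]
        exact pow_ne_zero 2 (mul_ne_zero hi ht2)
      · exact ⟨x, pow_ne_zero 2 hx0, hx⟩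
    exact lt_of_lt_of_le (hop.measure_pos volume hne)
      (measure_mono (Set.inter_subset_inter_right _ interior_subset))

theorem Body.AmPD {K : Set (ι → ℝ)} (h : Body K) : (Am K).PosDef := by
  have h1 : Am K = (((Fintype.card ι : ℝ) + 1) * ((Fintype.card ι : ℝ) + 2)) • cov K +
      ((Fintype.card ι : ℝ) + 1)⁻¹ • vecMulVec (sv K) (sv K) := by
    rw [h.covA]
    abel
  rw [h1]
  refine (h.covPD.smul (by positivity)).add_posSemidef ?_
  have h2 := posSemidef_vecMulVec_self_star (sv K)
  rw [star_trivial] at h2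
  exact h2.smul (by positivity)

theorem Body.R_pos [DecidableEq ι] {K : Set (ι → ℝ)} (h : Body K) : 0 < R K := by
  exact div_pos h.covPD.det_pos (pow_pos h.vol_pos 2)

theorem Body.R_eq [DecidableEq ι] {K : Set (ι → ℝ)} (h : Body K) :
    R K = cst (Fintype.card ι) *
      (Dq (Am K) (sv K) / (((Fintype.card ι).factorial : ℝ) * vol K) ^ 2) := by
  unfold R cst Dq
  rw [← h.covA, det_smul]
  have h1 := h.vol_pos.ne'
  have h2 : ((Fintype.card ι).factorial : ℝ) ≠ 0 := by positivity
  have h3 : ((Fintype.card ι : ℝ) + 1) ≠ 0 := by positivity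
  have h4 : (((Fintype.card ι : ℝ) + 1) * ((Fintype.card ι : ℝ) + 2)) ^ Fintype.card ι ≠ 0 := by
    positivity
  generalize (((Fintype.card ι : ℝ) + 1) * ((Fintype.card ι : ℝ) + 2)) ^ Fintype.card ι = w at h4
  field_simp

theorem cst_pos (n : ℕ) : 0 < cst n := by
  unfold cst; positivity

end Vale.Agent.P254
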