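import Vale.Agent.P254.Bas

namespace Vale.Agent.P254

open MeasureTheory Matrix
open scoped Pointwise

variable {ι κ : Type} [Fintype ι] [Fintype κ]

theorem mem_freeSum {K : Set (ι → ℝ)} {M : Set (κ → ℝ)} (hK : Convex ℝ K) (hM : Convex ℝ M)
    (h0 : (0 : ι → ℝ) ∈ K) (h0' : (0 : κ → ℝ) ∈ M) (x : ι → ℝ) (y : κ → ℝ) :
    Sum.elim x y ∈ freeSum K M ↔ ∃ t ∈ Set.Icc (0 : ℝ) 1, x ∈ t • K ∧ y ∈ (1 - t) • M := by
  have l1 : IsLinearMap ℝ fun x : ι → ℝ => Sum.elim x (0 : κ → ℝ) :=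
    ⟨fun a b => by ext (i | j) <;> simp, fun c a => by ext (i | j) <;> simp⟩
  have l2 : IsLinearMap ℝ fun y : κ → ℝ => Sum.elim (0 : ι → ℝ) y :=
    ⟨fun a b => by ext (i | j) <;> simp, fun c a => by ext (i | j) <;> simp⟩
  unfold freeSum
  rw [(hK.is_linear_image l1).convexHull_union (hM.is_linear_image l2) ⟨_, _, h0, rfl⟩
    ⟨_, _, h0', rfl⟩, mem_convexJoin]
  constructor
  · rintro ⟨_, ⟨k, hk, rfl⟩, _, ⟨m, hm, rfl⟩, a, b, ha, hb, hab, e⟩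
    refine ⟨a, ⟨ha, by linarith⟩, ⟨k, hk, funext fun i => ?_⟩, m, hm, funext fun j => ?_⟩
    · simpa using congrFun e (Sum.inl i)
    · rw [show 1 - a = b by linarith]
      simpa using congrFun e (Sum.inr j)
  · rintro ⟨t, ht, ⟨k, hk, rfl⟩, m, hm, rfl⟩
    refine ⟨_, ⟨k, hk, rfl⟩, _, ⟨m, hm, rfl⟩, t, 1 - t, ht.1, by linarith [ht.2], by ring, ?_⟩
    ext (i | j) <;> simp

theorem compact_freeSum {K : Set (ι → ℝ)} {M : Set (κ → ℝ)} (hK : Body K) (hM : Body M)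
    (h0 : (0 : ι → ℝ) ∈ K) (h0' : (0 : κ → ℝ) ∈ M) : IsCompact (freeSum K M) := by
  have e : freeSum K M = (fun p : ℝ × (ι → ℝ) × (κ → ℝ) =>
      Sum.elim (p.1 • p.2.1) ((1 - p.1) • p.2.2)) '' (Set.Icc 0 1 ×ˢ K ×ˢ M) := by
    ext z
    rw [← Sum.elim_comp_inl_inr z, mem_freeSum hK.2.1 hM.2.1 h0 h0']
    constructor
    · rintro ⟨t, ht, ⟨k, hk, e1⟩, m, hm, e2⟩
      exact ⟨(t, k, m), ⟨ht, hk, hm⟩, by rw [← e1, ← e2]⟩
    · rintro ⟨⟨t, k, m⟩, ⟨ht, hk, hm⟩, e⟩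
      exact ⟨t, ht, ⟨k, hk, funext fun i => congrFun e (Sum.inl i)⟩, m, hm,
        funext fun j => congrFun e (Sum.inr j)⟩
  rw [e]
  refine (isCompact_Icc.prod (hK.1.prod hM.1)).image (continuous_pi fun a => ?_)
  cases a with
  | inl i =>
    simp only [Sum.elim_inl, Pi.smul_apply]
    fun_prop
  | inr j =>
    simp only [Sum.elim_inr, Pi.smul_apply]
    fun_prop

theorem smul_mono {K : Set (ι → ℝ)} (hK : Convex ℝ K) (h0 : (0 : ι → ℝ) ∈ K) {s t : ℝ}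
    (hs : 0 ≤ s) (hst : s ≤ t) : s • K ⊆ t • K := by
  rcases (hs.trans hst).eq_or_lt with h | h
  · rw [← h, show s = 0 by linarith]
  · rintro _ ⟨k, hk, rfl⟩
    refine ⟨(s / t) • k, hK.smul_mem_of_zero_mem h0 hk
      ⟨div_nonneg hs h.le, (div_le_one h).2 hst⟩, ?_⟩
    beta_reduce
    rw [smul_smul, mul_div_cancel₀ _ h.ne']

theorem compact_cone {K : Set (ι → ℝ)} (hK : Body K) :
    IsCompact {p : (ι → ℝ) × ℝ | p.2 ∈ Set.Icc (0 : ℝ) 1 ∧ p.1 ∈ p.2 • K} := by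
  have e : {p : (ι → ℝ) × ℝ | p.2 ∈ Set.Icc (0 : ℝ) 1 ∧ p.1 ∈ p.2 • K} =
      (fun q : (ι → ℝ) × ℝ => (q.2 • q.1, q.2)) '' (K ×ˢ Set.Icc 0 1) := by
    ext ⟨x, t⟩
    constructor
    · rintro ⟨ht, k, hk, e⟩
      exact ⟨(k, t), ⟨hk, ht⟩, Prod.ext e rfl⟩
    · rintro ⟨⟨k, s⟩, ⟨hk, hs⟩, e⟩
      obtain ⟨rfl, rfl⟩ := Prod.mk.inj e
      exact ⟨hs, k, hk, rfl⟩
  rw [e]
  exact (hK.1.prod isCompact_Icc).image (by fun_prop)

theorem gauge_ex {K : Set (ι → ℝ)} (hK : Body K) (h0 : (0 : ι → ℝ) ∈ K) {x : ι → ℝ}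
    (hx : x ∈ K) : ∃ s ∈ Set.Icc (0 : ℝ) 1, ∀ t ∈ Set.Icc (0 : ℝ) 1, x ∈ t • K ↔ s ≤ t := by
  have h1 : IsClosed {t : ℝ | t ∈ Set.Icc (0 : ℝ) 1 ∧ x ∈ t • K} :=
    (compact_cone hK).isClosed.preimage (f := fun t : ℝ => (x, t)) (by fun_prop)
  obtain ⟨s, hs, hmin⟩ := (isCompact_Icc.of_isClosed_subset h1 fun t ht => ht.1).exists_isLeast
    ⟨1, ⟨zero_le_one, le_rfl⟩, by rwa [one_smul]⟩
  exact ⟨s, hs.1, fun t ht => ⟨fun h => hmin ⟨ht, h⟩,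
    fun h => smul_mono hK.2.1 h0 hs.1.1 h hs.2⟩⟩

theorem mem_beta (k m : ℕ) : ∫ t in (0 : ℝ)..1, (1 - t) ^ m * t ^ k =
    (k.factorial : ℝ) * (m.factorial : ℝ) / ((k + m + 1).factorial : ℝ) := by
  induction m generalizing k with
  | zero =>
    have h : (0 : ℝ) < k.factorial := Nat.cast_pos.2 k.factorial_pos
    simp only [pow_zero, one_mul, integral_pow, add_zero, Nat.factorial_succ, Nat.factorial_zero]
    push_cast
    field_simp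
    simp
  | succ m ih =>
    have e : ∀ t : ℝ, (1 - t) ^ (m + 1) * t ^ k =
        (1 - t) ^ m * t ^ k - (1 - t) ^ m * t ^ (k + 1) := fun t => by ring
    have h : (0 : ℝ) < (k + m + 1).factorial := Nat.cast_pos.2 (Nat.factorial_pos _)
    simp only [e]
    rw [intervalIntegral.integral_sub (Continuous.intervalIntegrable (by fun_prop) _ _)
      (Continuous.intervalIntegrable (by fun_prop) _ _), ih, ih,
      show k + 1 + m + 1 = k + m + 1 + 1 by ring, show k + (m + 1) + 1 = k + m + 1 + 1 by ring,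
      Nat.factorial_succ (k + m + 1), Nat.factorial_succ k, Nat.factorial_succ m]
    push_cast
    field_simp
    ring

theorem beta_int (k m : ℕ) :
    ∫ t in Set.Icc (0 : ℝ) 1, ((m : ℝ) + 1) * (1 - t) ^ m * t ^ k =
      (k.factorial : ℝ) * ((m + 1).factorial : ℝ) / ((k + m + 1).factorial : ℝ) := by
  rw [integral_Icc_eq_integral_Ioc, ← intervalIntegral.integral_of_le zero_le_one]
  simp only [mul_assoc]
  rw [intervalIntegral.integral_const_mul, mem_beta, Nat.factorial_succ m]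
  push_cast
  ring

end Vale.Agent.P254
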