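import Vale.Agent.P254.Scal
import Vale.Agent.P254.Mem

namespace Vale.Agent.P254

open MeasureTheory Matrix
open scoped Pointwise

variable {ι κ : Type} [Fintype ι] [Fintype κ]

theorem beta_pow (m : ℕ) {s : ℝ} (hs : s ≤ 1) :
    ∫ t in Set.Icc s 1, ((m : ℝ) + 1) * (1 - t) ^ m = (1 - s) ^ (m + 1) := by
  rw [integral_Icc_eq_integral_Ioc, ← intervalIntegral.integral_of_le hs,
    intervalIntegral.integral_const_mul,
    intervalIntegral.integral_comp_sub_left (fun u : ℝ => u ^ m) 1, integral_pow]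
  have : (m : ℝ) + 1 ≠ 0 := by positivity
  simp only [sub_self]
  rw [zero_pow (Nat.succ_ne_zero m)]
  field_simp
  ring

theorem beta_scal [Nonempty κ] {M : Set (κ → ℝ)} (g : (κ → ℝ) → ℝ) (j : ℕ)
    (hg : ∀ t : ℝ, 0 < t → ∀ y, g (t • y) = t ^ j * g y) {t : ℝ} (ht : 0 ≤ t) :
    ∫ y in t • M, g y = t ^ (Fintype.card κ + j) * ∫ y in M, g y := by
  rcases ht.eq_or_lt with rfl | ht
  · have h1 : Fintype.card κ + j ≠ 0 := by
      have := Fintype.card_pos (α := κ)
      omega
    rw [zero_pow h1, zero_mul]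
    refine setIntegral_measure_zero _ (measure_mono_null (t := {0}) ?_ (measure_singleton _))
    rintro _ ⟨y, _, rfl⟩
    simp
  · exact scal M g j hg ht

theorem beta [Nonempty κ] {K : Set (ι → ℝ)} {M : Set (κ → ℝ)} (hK : Body K) (hM : Body M)
    (h0 : (0 : ι → ℝ) ∈ K) (h0' : (0 : κ → ℝ) ∈ M) (f : (ι → ℝ) → ℝ) (g : (κ → ℝ) → ℝ)
    (hfc : Continuous f) (hgc : Continuous g) (i j : ℕ)
    (hf : ∀ t : ℝ, 0 < t → ∀ x, f (t • x) = t ^ i * f x)
    (hg : ∀ t : ℝ, 0 < t → ∀ y, g (t • y) = t ^ j * g y) :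
    ∫ z in freeSum K M, f (fun a => z (Sum.inl a)) * g (fun b => z (Sum.inr b)) =
      (∫ x in K, f x) * (∫ y in M, g y) *
        (((Fintype.card ι + i).factorial : ℝ) * ((Fintype.card κ + j).factorial : ℝ) /
          ((Fintype.card ι + Fintype.card κ + i + j).factorial : ℝ)) := by
  classical
  obtain ⟨m, hm⟩ : ∃ m, Fintype.card κ + j = m + 1 :=
    ⟨Fintype.card κ + j - 1, by have := Fintype.card_pos (α := κ); omega⟩
  set e := MeasurableEquiv.sumPiEquivProdPi (fun _ : ι ⊕ κ => ℝ) with he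
  set S : Set ((ι → ℝ) × (κ → ℝ)) := {p | Sum.elim p.1 p.2 ∈ freeSum K M} with hS
  set C : Set ((ι → ℝ) × ℝ) := {p | p.2 ∈ Set.Icc (0 : ℝ) 1 ∧ p.1 ∈ p.2 • K} with hC
  set G := ∫ y in M, g y with hG
  have hel : ∀ z : ι ⊕ κ → ℝ, Sum.elim (fun a => z (Sum.inl a)) (fun b => z (Sum.inr b)) = z :=
    fun z => by ext a; cases a <;> rfl
  have h1 : freeSum K M = e ⁻¹' S := by
    ext z
    show _ ↔ Sum.elim (fun a => z (Sum.inl a)) (fun b => z (Sum.inr b)) ∈ freeSum K M
    rw [hel]
  have hSc : IsCompact S := by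
    have h2 : S = (fun z : ι ⊕ κ → ℝ => ((fun a => z (Sum.inl a), fun b => z (Sum.inr b)) :
        (ι → ℝ) × (κ → ℝ))) '' freeSum K M := by
      ext p
      constructor
      · intro hp
        exact ⟨Sum.elim p.1 p.2, hp, rfl⟩
      · rintro ⟨z, hz, rfl⟩
        show Sum.elim (fun a => z (Sum.inl a)) (fun b => z (Sum.inr b)) ∈ freeSum K M
        rwa [hel]
    rw [h2]
    exact (compact_freeSum hK hM h0 h0').image (by fun_prop)
  have hCc : IsCompact C := compact_cone hK
  have h2 : ∫ z in freeSum K M, f (fun a => z (Sum.inl a)) * g (fun b => z (Sum.inr b)) =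
      ∫ p in S, f p.1 * g p.2 := by
    rw [h1]
    exact (volume_measurePreserving_sumPiEquivProdPi (fun _ : ι ⊕ κ => ℝ)).setIntegral_preimage_emb
      e.measurableEmbedding (fun p => f p.1 * g p.2) S
  have hi1 : Integrable (S.indicator fun p => f p.1 * g p.2) (volume.prod volume) := by
    rw [integrable_indicator_iff hSc.measurableSet]
    exact ContinuousOn.integrableOn_compact hSc (Continuous.continuousOn (by fun_prop))
  have hi2 : Integrable (C.indicator fun p => f p.1 * (((m : ℝ) + 1) * (1 - p.2) ^ m))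
      (volume.prod volume) := by
    rw [integrable_indicator_iff hCc.measurableSet]
    exact ContinuousOn.integrableOn_compact hCc (Continuous.continuousOn (by fun_prop))
  have h3 : ∀ x, ∫ y, S.indicator (fun p => f p.1 * g p.2) (x, y) =
      G * ∫ t, C.indicator (fun p => f p.1 * (((m : ℝ) + 1) * (1 - p.2) ^ m)) (x, t) := by
    intro x
    by_cases hx : x ∈ K
    · obtain ⟨s, hs, hst⟩ := gauge_ex hK h0 hx
      have h4 : ∀ y, S.indicator (fun p => f p.1 * g p.2) (x, y) =
          ((1 - s) • M).indicator (fun y => f x * g y) y := by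
        intro y
        have h5 : (x, y) ∈ S ↔ y ∈ (1 - s) • M := by
          show Sum.elim x y ∈ freeSum K M ↔ _
          rw [mem_freeSum hK.2.1 hM.2.1 h0 h0']
          constructor
          · rintro ⟨t, ht, h6, h7⟩
            exact smul_mono hM.2.1 h0' (by linarith [ht.2]) (by linarith [(hst t ht).1 h6]) h7
          · intro h6
            exact ⟨s, hs, (hst s hs).2 le_rfl, h6⟩
        by_cases h6 : y ∈ (1 - s) • M
        · rw [Set.indicator_of_mem h6, Set.indicator_of_mem (h5.2 h6)]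
        · rw [Set.indicator_of_notMem h6, Set.indicator_of_notMem fun h => h6 (h5.1 h)]
      have h5 : ∀ t, C.indicator (fun p => f p.1 * (((m : ℝ) + 1) * (1 - p.2) ^ m)) (x, t) =
          (Set.Icc s 1).indicator (fun t => f x * (((m : ℝ) + 1) * (1 - t) ^ m)) t := by
        intro t
        have h6 : (x, t) ∈ C ↔ t ∈ Set.Icc s 1 :=
          ⟨fun h => ⟨(hst t h.1).1 h.2, h.1.2⟩,
            fun h => ⟨⟨hs.1.trans h.1, h.2⟩, (hst t ⟨hs.1.trans h.1, h.2⟩).2 h.1⟩⟩
        by_cases h7 : t ∈ Set.Icc s 1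
        · rw [Set.indicator_of_mem h7, Set.indicator_of_mem (h6.2 h7)]
        · rw [Set.indicator_of_notMem h7, Set.indicator_of_notMem fun h => h7 (h6.1 h)]
      simp only [h4, h5]
      rw [integral_indicator (hM.1.smul (1 - s)).measurableSet, integral_indicator measurableSet_Icc,
        integral_const_mul, integral_const_mul, beta_pow m hs.2,
        beta_scal g j hg (by linarith [hs.2]), hm]
      ring
    · have h4 : ∀ t ∈ Set.Icc (0 : ℝ) 1, x ∉ t • K := fun t ht h =>
        hx (by simpa using smul_mono hK.2.1 h0 ht.1 ht.2 h)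
      have h5 : ∀ y, S.indicator (fun p => f p.1 * g p.2) (x, y) = 0 := fun y =>
        Set.indicator_of_notMem (fun h => by
          obtain ⟨t, ht, h6, _⟩ := (mem_freeSum hK.2.1 hM.2.1 h0 h0' x y).1 h
          exact h4 t ht h6) _
      have h6 : ∀ t, C.indicator (fun p => f p.1 * (((m : ℝ) + 1) * (1 - p.2) ^ m)) (x, t) = 0 :=
        fun t => Set.indicator_of_notMem (fun h => h4 t h.1 h.2) _
      simp only [h5, h6]
      simp
  have h4 : ∀ t, ∫ x, C.indicator (fun p => f p.1 * (((m : ℝ) + 1) * (1 - p.2) ^ m)) (x, t) =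
      (Set.Icc (0 : ℝ) 1).indicator
        (fun t => (∫ x in t • K, f x) * (((m : ℝ) + 1) * (1 - t) ^ m)) t := by
    intro t
    by_cases ht : t ∈ Set.Icc (0 : ℝ) 1
    · rw [Set.indicator_of_mem ht, ← integral_mul_const,
        ← integral_indicator (hK.1.smul t).measurableSet]
      congr 1
      ext x
      by_cases hx : x ∈ t • K
      · rw [Set.indicator_of_mem hx, Set.indicator_of_mem (show (x, t) ∈ C from ⟨ht, hx⟩)]
      · rw [Set.indicator_of_notMem hx, Set.indicator_of_notMem fun h => hx h.2]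
    · rw [Set.indicator_of_notMem ht]
      have h5 : ∀ x, C.indicator (fun p => f p.1 * (((m : ℝ) + 1) * (1 - p.2) ^ m)) (x, t) = 0 :=
        fun x => Set.indicator_of_notMem (fun h => ht h.1) _
      simp only [h5]
      simp
  have h5 : ∫ t in Set.Icc (0 : ℝ) 1, (∫ x in t • K, f x) * (((m : ℝ) + 1) * (1 - t) ^ m) =
      (∫ x in K, f x) *
        ∫ t in Set.Icc (0 : ℝ) 1, ((m : ℝ) + 1) * (1 - t) ^ m * t ^ (Fintype.card ι + i) := by
    rw [← integral_const_mul, integral_Icc_eq_integral_Ioc, integral_Icc_eq_integral_Ioc]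
    refine setIntegral_congr_fun measurableSet_Ioc fun t ht => ?_
    beta_reduce
    rw [scal K f i hf ht.1]
    ring
  rw [h2, ← integral_indicator hSc.measurableSet, Measure.volume_eq_prod, integral_prod _ hi1]
  simp only [h3]
  rw [integral_const_mul, ← integral_prod _ hi2, integral_prod_symm _ hi2]
  simp only [h4]
  rw [integral_indicator measurableSet_Icc, h5, beta_int, hm,
    show Fintype.card ι + Fintype.card κ + i + j = Fintype.card ι + i + m + 1 by omega]
  ring

end Vale.Agent.P254
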