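import Mathlib

namespace Vale.Agent.P254

open MeasureTheory

variable {ι κ : Type} [Fintype ι] [Fintype κ]

/-- Convex body: compact, convex, nonempty interior. -/
def Body (K : Set (ι → ℝ)) : Prop := IsCompact K ∧ Convex ℝ K ∧ (interior K).Nonempty

/-- Lebesgue volume. -/
noncomputable def vol (K : Set (ι → ℝ)) : ℝ := (volume K).toReal

/-- Centroid. -/
noncomputable def cen (K : Set (ι → ℝ)) (i : ι) : ℝ := (vol K)⁻¹ * ∫ x in K, x i

/-- Covariance matrix. -/
noncomputable def cov (K : Set (ι → ℝ)) : Matrix ι ι ℝ :=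
  Matrix.of fun i j => (vol K)⁻¹ * ∫ x in K, (x i - cen K i) * (x j - cen K j)

/-- Isotropic constant. -/
noncomputable def L [DecidableEq ι] (K : Set (ι → ℝ)) : ℝ :=
  ((cov K).det / vol K ^ 2) ^ (1 / (2 * (Fintype.card ι : ℝ)))

/-- Convex hull of `n + 1` affinely independent points. -/
def IsSimplex (S : Set (ι → ℝ)) : Prop :=
  ∃ v : Option ι → ι → ℝ, AffineIndependent ℝ v ∧ S = convexHull ℝ (Set.range v)

/-- The strong isotropic constant conjecture for the body `K`. -/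
def Strong [DecidableEq ι] (K : Set (ι → ℝ)) : Prop :=
  ∀ S : Set (ι → ℝ), IsSimplex S → L K ≤ L S ∧ (L K = L S → IsSimplex K)

/-- Cartesian product. -/
def prodB (K : Set (ι → ℝ)) (M : Set (κ → ℝ)) : Set (ι ⊕ κ → ℝ) :=
  {z | (fun i => z (Sum.inl i)) ∈ K ∧ (fun j => z (Sum.inr j)) ∈ M}

/-- Free sum at the origin: convex hull of `K × 0` and `0 × M`. -/
def freeSum (K : Set (ι → ℝ)) (M : Set (κ → ℝ)) : Set (ι ⊕ κ → ℝ) :=
  convexHull ℝ ((fun x => Sum.elim x (0 : κ → ℝ)) '' K ∪ (fun y => Sum.elim (0 : ι → ℝ) y) '' M)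

end Vale.Agent.P254
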