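import Vale.Agent.P254.Beta

namespace Vale.Agent.P254

open MeasureTheory Matrix

variable {ι κ : Type} [Fintype ι] [Fintype κ] [Nonempty κ] {K : Set (ι → ℝ)} {M : Set (κ → ℝ)}

theorem fsm_one {α : Type} [Fintype α] (S : Set (α → ℝ)) : ∫ _x in S, (1 : ℝ) = vol S := by
  rw [setIntegral_const, smul_eq_mul, mul_one]
  rfl

theorem fsm_vol (hK : Body K) (hM : Body M) (h0 : (0 : ι → ℝ) ∈ K) (h0' : (0 : κ → ℝ) ∈ M) :
    vol (freeSum K M) = vol K * vol M *
      (((Fintype.card ι).factorial : ℝ) * ((Fintype.card κ).factorial : ℝ) /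
        ((Fintype.card ι + Fintype.card κ).factorial : ℝ)) := by
  have h := beta hK hM h0 h0' (fun _ => (1 : ℝ)) (fun _ => (1 : ℝ)) continuous_const
    continuous_const 0 0 (by intro t _ x; simp) (by intro t _ x; simp)
  simp only [mul_one, add_zero, fsm_one] at h
  exact h

theorem fs_vol (hK : Body K) (hM : Body M) (h0 : (0 : ι → ℝ) ∈ K) (h0' : (0 : κ → ℝ) ∈ M) :
    ((Fintype.card (ι ⊕ κ)).factorial : ℝ) * vol (freeSum K M) =
      (((Fintype.card ι).factorial : ℝ) * vol K) * (((Fintype.card κ).factorial : ℝ) * vol M) := by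
  rw [fsm_vol hK hM h0 h0', Fintype.card_sum]
  have : (((Fintype.card ι + Fintype.card κ).factorial : ℕ) : ℝ) ≠ 0 := by positivity
  field_simp

theorem fs_body (hK : Body K) (hM : Body M) (h0 : (0 : ι → ℝ) ∈ K) (h0' : (0 : κ → ℝ) ∈ M) :
    Body (freeSum K M) := by
  refine ⟨compact_freeSum hK hM h0 h0', convex_convexHull ℝ _,
    int_of_vol (convex_convexHull ℝ _) ?_⟩
  rw [fsm_vol hK hM h0 h0']
  have h1 := hK.vol_pos
  have h2 := hM.vol_pos
  positivity

theorem fsm_f1 (n : ℕ) : (((n + 1).factorial : ℕ) : ℝ) = ((n : ℝ) + 1) * (n.factorial : ℝ) := by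
  rw [Nat.factorial_succ]; push_cast; ring

theorem fsm_f2 (n : ℕ) :
    (((n + 2).factorial : ℕ) : ℝ) = ((n : ℝ) + 2) * (((n : ℝ) + 1) * (n.factorial : ℝ)) := by
  rw [show n + 2 = (n + 1) + 1 from rfl, fsm_f1, fsm_f1]; push_cast; ring

theorem fsm_f11 (n : ℕ) :
    (((n + 1 + 1).factorial : ℕ) : ℝ) = ((n : ℝ) + 2) * (((n : ℝ) + 1) * (n.factorial : ℝ)) :=
  fsm_f2 n

theorem fs_sv (hK : Body K) (hM : Body M) (h0 : (0 : ι → ℝ) ∈ K) (h0' : (0 : κ → ℝ) ∈ M) :
    sv (freeSum K M) = Sum.elim (sv K) (sv M) := by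
  have h1 := hK.vol_pos.ne'
  have h2 := hM.vol_pos.ne'
  have f1 : (((Fintype.card ι + Fintype.card κ).factorial : ℕ) : ℝ) ≠ 0 := by positivity
  have f2 : (((Fintype.card ι).factorial : ℕ) : ℝ) ≠ 0 := by positivity
  have f3 : (((Fintype.card κ).factorial : ℕ) : ℝ) ≠ 0 := by positivity
  funext c
  rcases c with a | b
  · have h := beta hK hM h0 h0' (fun x => x a) (fun _ => (1 : ℝ)) (continuous_apply a)
      continuous_const 1 0 (by intro t _ x; simp) (by intro t _ x; simp)
    simp only [mul_one, add_zero, fsm_one] at h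
    simp only [sv, cen, Sum.elim_inl]
    rw [h, fsm_vol hK hM h0 h0', Fintype.card_sum, fsm_f1, fsm_f1]
    push_cast
    field_simp
  · have h := beta hK hM h0 h0' (fun _ => (1 : ℝ)) (fun y => y b) continuous_const
      (continuous_apply b) 0 1 (by intro t _ x; simp) (by intro t _ x; simp)
    simp only [one_mul, add_zero, fsm_one] at h
    simp only [sv, cen, Sum.elim_inr]
    rw [h, fsm_vol hK hM h0 h0', Fintype.card_sum, fsm_f1, fsm_f1]
    push_cast
    field_simp

theorem fs_Am (hK : Body K) (hM : Body M) (h0 : (0 : ι → ℝ) ∈ K) (h0' : (0 : κ → ℝ) ∈ M) :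
    Am (freeSum K M) = fromBlocks (Am K) 0 0 (Am M) := by
  have h1 := hK.vol_pos.ne'
  have h2 := hM.vol_pos.ne'
  have f1 : (((Fintype.card ι + Fintype.card κ).factorial : ℕ) : ℝ) ≠ 0 := by positivity
  have f2 : (((Fintype.card ι).factorial : ℕ) : ℝ) ≠ 0 := by positivity
  have f3 : (((Fintype.card κ).factorial : ℕ) : ℝ) ≠ 0 := by positivity
  have hx : ∀ (a : ι) (b : κ), ∫ z in freeSum K M, z (Sum.inl a) * z (Sum.inr b) =
      (∫ x in K, x a) * (∫ y in M, y b) *
        (((Fintype.card ι + 1).factorial : ℝ) * ((Fintype.card κ + 1).factorial : ℝ) /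
          ((Fintype.card ι + Fintype.card κ + 1 + 1).factorial : ℝ)) := fun a b =>
    beta hK hM h0 h0' (fun x => x a) (fun y => y b) (continuous_apply a)
      (continuous_apply b) 1 1 (by intro t _ x; simp) (by intro t _ x; simp)
  ext c c'
  rcases c with a | b <;> rcases c' with a' | b'
  · have h := beta hK hM h0 h0' (fun x => x a * x a') (fun _ => (1 : ℝ))
      ((continuous_apply a).mul (continuous_apply a'))
      continuous_const 2 0 (by intro t _ x; simp; ring) (by intro t _ x; simp)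
    simp only [mul_one, add_zero, fsm_one] at h
    simp only [Am, Matrix.of_apply, fromBlocks_apply₁₁, fs_sv hK hM h0 h0', Sum.elim_inl]
    rw [h, fsm_vol hK hM h0 h0', Fintype.card_sum, fsm_f2, fsm_f2]
    push_cast
    field_simp
  · simp only [Am, Matrix.of_apply, fromBlocks_apply₁₂, fs_sv hK hM h0 h0', Sum.elim_inl,
      Sum.elim_inr, Matrix.zero_apply]
    rw [hx, fsm_vol hK hM h0 h0', Fintype.card_sum, fsm_f11, fsm_f1, fsm_f1]
    simp only [sv, cen]
    push_cast
    field_simp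
    ring
  · simp only [Am, Matrix.of_apply, fromBlocks_apply₂₁, fs_sv hK hM h0 h0', Sum.elim_inl,
      Sum.elim_inr, Matrix.zero_apply]
    have hc : ∫ z in freeSum K M, z (Sum.inr b) * z (Sum.inl a') =
        ∫ z in freeSum K M, z (Sum.inl a') * z (Sum.inr b) := by
      simp only [mul_comm]
    rw [hc, hx, fsm_vol hK hM h0 h0', Fintype.card_sum, fsm_f11, fsm_f1, fsm_f1]
    simp only [sv, cen]
    push_cast
    field_simp
    ring
  · have h := beta hK hM h0 h0' (fun _ => (1 : ℝ)) (fun y => y b * y b') continuous_const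
      ((continuous_apply b).mul (continuous_apply b')) 0 2
      (by intro t _ x; simp) (by intro t _ x; simp; ring)
    simp only [one_mul, add_zero, fsm_one] at h
    simp only [Am, Matrix.of_apply, fromBlocks_apply₂₂, fs_sv hK hM h0 h0', Sum.elim_inr]
    rw [h, fsm_vol hK hM h0 h0', Fintype.card_sum, fsm_f2, fsm_f2]
    push_cast
    field_simp

end Vale.Agent.P254
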