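import Vale.Agent.P254.Defs

namespace Vale.Agent.P254

/-- Bodies built from simplices by products, free sums and invertible affine maps. -/
inductive Gen : {ι : Type} → Set (ι → ℝ) → Prop
  | simplex {ι : Type} [Nonempty ι] {S : Set (ι → ℝ)} : IsSimplex S → Gen S
  | prod {ι κ : Type} {K : Set (ι → ℝ)} {M : Set (κ → ℝ)} : Gen K → Gen M → Gen (prodB K M)
  | sum {ι κ : Type} {K : Set (ι → ℝ)} {M : Set (κ → ℝ)} :
      Gen K → Gen M → 0 ∈ K → 0 ∈ M → Gen (freeSum K M)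
  | aff {ι κ : Type} {K : Set (ι → ℝ)} (T : (ι → ℝ) ≃ᵃ[ℝ] (κ → ℝ)) : Gen K → Gen (T '' K)

end Vale.Agent.P254
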