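import Vale.Agent.P254.Main
import Vale.Agent.P254.GenDef

namespace Vale.Agent.P254

open MeasureTheory Matrix

theorem strong_equiv {ι κ : Type} [Fintype ι] [Fintype κ] [DecidableEq ι] [DecidableEq κ]
    [Nonempty ι] (T : (ι → ℝ) ≃ᵃ[ℝ] (κ → ℝ)) {K : Set (ι → ℝ)} (hK : Body K) (sK : Strong K) :
    Body (T '' K) ∧ Strong (T '' K) := by
  have hc : Fintype.card ι = Fintype.card κ := by
    have := T.linear.finrank_eq
    simpa using this
  let e : ι ≃ κ := Fintype.equivOfCardEq hc
  have hT : (T : (ι → ℝ) → κ → ℝ) = aff (LinearMap.toMatrix' T.linear.toLinearMap) (T 0) := by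
    funext x
    have := T.map_vadd 0 x
    simp only [vadd_eq_add, add_zero] at this
    rw [this, aff, LinearMap.toMatrix'_mulVec]
    rfl
  have hi : (interior (T '' K)).Nonempty := by
    obtain ⟨x, hx⟩ := hK.2.2
    have := T.toContinuousAffineEquiv.toHomeomorph.image_interior K
    exact ⟨T x, by
      have h2 : T x ∈ T.toContinuousAffineEquiv.toHomeomorph '' interior K := ⟨x, hx, rfl⟩
      rwa [this] at h2⟩
  rw [hT] at hi ⊢
  have hd := det_ne_of_int e _ _ hi
  exact ⟨body_aff e _ hd _ hK, strong_aff e _ hd _ hK sK (simplex_aff e _ hd _)⟩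

theorem strong_gen {ι : Type} {K : Set (ι → ℝ)} (h : Gen K) :
    Finite ι → Nonempty ι ∧ ∀ [Fintype ι] [DecidableEq ι], Body K ∧ Strong K := by
  classical
  induction h with
  | simplex hS => exact fun _ => ⟨inferInstance, fun {_ _} => ⟨hS.body, strong_simplex hS⟩⟩
  | @prod ι κ K M _ _ i1 i2 =>
    intro hf
    have f1 : Finite ι := Finite.of_injective _ (Sum.inl_injective (β := κ))
    have f2 : Finite κ := Finite.of_injective _ (Sum.inr_injective (α := ι))
    obtain ⟨n1, a⟩ := i1 f1
    obtain ⟨n2, b⟩ := i2 f2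
    refine ⟨inferInstance, fun {F D} => ?_⟩
    have := Fintype.ofFinite ι
    have := Fintype.ofFinite κ
    obtain rfl : F = instFintypeSum ι κ := Subsingleton.elim _ _
    obtain rfl : D = instDecidableEqSum := Subsingleton.elim _ _
    exact ⟨prod_body a.1 b.1, strong_prod a.1 b.1 a.2 b.2⟩
  | @sum ι κ K M _ _ h0 h0' i1 i2 =>
    intro hf
    have f1 : Finite ι := Finite.of_injective _ (Sum.inl_injective (β := κ))
    have f2 : Finite κ := Finite.of_injective _ (Sum.inr_injective (α := ι))
    obtain ⟨n1, a⟩ := i1 f1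
    obtain ⟨n2, b⟩ := i2 f2
    refine ⟨inferInstance, fun {F D} => ?_⟩
    have := Fintype.ofFinite ι
    have := Fintype.ofFinite κ
    obtain rfl : F = instFintypeSum ι κ := Subsingleton.elim _ _
    obtain rfl : D = instDecidableEqSum := Subsingleton.elim _ _
    exact ⟨fs_body a.1 b.1 h0 h0', strong_fs a.1 b.1 h0 h0' a.2 b.2⟩
  | @aff ι κ K T _ i1 =>
    intro hf
    have f1 : Finite ι := by
      have : Module.Finite ℝ (ι → ℝ) := Module.Finite.equiv T.linear.symm
      have hl : LinearIndependent ℝ (fun i : ι => (Pi.single i (1 : ℝ) : ι → ℝ)) :=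
        Pi.linearIndependent_single_one ι ℝ
      exact hl.finite
    obtain ⟨n1, a⟩ := i1 f1
    have := Fintype.ofFinite ι
    refine ⟨?_, fun {F D} => strong_equiv T a.1 a.2⟩
    have := Fintype.ofFinite κ
    have hc : Fintype.card ι = Fintype.card κ := by
      have := T.linear.finrank_eq
      simpa using this
    exact Fintype.card_pos_iff.1 (hc ▸ Fintype.card_pos)

end Vale.Agent.P254
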