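import Vale.Agent.P254.Bas

namespace Vale.Agent.P254

theorem num_bern {t : ℝ} (ht : 0 ≤ t) (m : ℕ) :
    1 + m * t + m * (m - 1) / 2 * t ^ 2 ≤ (1 + t) ^ m := by
  induction m with
  | zero => simp
  | succ m ih =>
    have h1 : (0 : ℝ) ≤ m * (m - 1) := by
      rcases m with _ | m
      · simp
      · push_cast
        have : (0 : ℝ) ≤ m := Nat.cast_nonneg m
        nlinarith
    have h2 := mul_le_mul_of_nonneg_right ih (show 0 ≤ 1 + t by linarith)
    have h3 : (0 : ℝ) ≤ m * (m - 1) / 2 * t ^ 3 := by positivity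
    rw [pow_succ (1 + t)]
    push_cast
    nlinarith

/-- Ratio of consecutive values of `cst`. -/
noncomputable def numRho (n : ℕ) : ℝ :=
  ((n : ℝ) + 1) ^ (n + 3) / (((n : ℝ) + 2) ^ 2 * ((n : ℝ) + 3) ^ (n + 1))

theorem num_succ (n : ℕ) : cst (n + 1) = cst n * numRho n := by
  unfold cst numRho
  rw [Nat.factorial_succ]
  push_cast
  have e1 : (n : ℝ) + 1 + 1 = n + 2 := by ring
  have e2 : (n : ℝ) + 1 + 2 = n + 3 := by ring
  rw [e1, e2, mul_pow ((n : ℝ) + 2), mul_pow ((n : ℝ) + 1) ((n : ℝ) + 2)]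
  have h1 : (n : ℝ) + 1 ≠ 0 := by positivity
  have h2 : (n : ℝ) + 2 ≠ 0 := by positivity
  have h3 : (n : ℝ) + 3 ≠ 0 := by positivity
  field_simp
  ring

theorem num_key (n : ℕ) :
    (((n : ℝ) + 1) * ((n : ℝ) + 4)) ^ (n + 2) * (((n : ℝ) + 1) * ((n : ℝ) + 3) ^ 3) <
      (((n : ℝ) + 2) * ((n : ℝ) + 3)) ^ (n + 2) * ((n : ℝ) + 2) ^ 4 := by
  have hn : (0 : ℝ) ≤ n := Nat.cast_nonneg n
  set y : ℝ := (n : ℝ) with hy
  have hp : 0 < (y + 1) * (y + 4) := by positivity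
  set t : ℝ := 2 / ((y + 1) * (y + 4)) with ht
  have ht0 : 0 ≤ t := by positivity
  have e : (y + 2) * (y + 3) = ((y + 1) * (y + 4)) * (1 + t) := by
    rw [ht]; field_simp; ring
  have hb := num_bern ht0 (n + 2)
  push_cast at hb
  rw [← hy] at hb
  have hq : (y + 1) * (y + 3) ^ 3 <
      (1 + (y + 2) * t + (y + 2) * (y + 2 - 1) / 2 * t ^ 2) * (y + 2) ^ 4 := by
    have e2 : 1 + (y + 2) * t + (y + 2) * (y + 2 - 1) / 2 * t ^ 2 =
        ((y + 1) * (y + 4) ^ 2 + 2 * (y + 2) * (y + 4) + 2 * (y + 2)) / ((y + 1) * (y + 4) ^ 2) := by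
      rw [ht]; field_simp; ring
    rw [e2, div_mul_eq_mul_div, lt_div_iff₀ (by positivity)]
    have : 0 < 2 * y ^ 4 + 31 * y ^ 3 + 141 * y ^ 2 + 248 * y + 144 := by positivity
    nlinarith
  rw [e, mul_pow ((y + 1) * (y + 4)) (1 + t), mul_assoc (((y + 1) * (y + 4)) ^ (n + 2))]
  refine mul_lt_mul_of_pos_left (hq.trans_le ?_) (by positivity)
  exact mul_le_mul_of_nonneg_right hb (by positivity)

theorem num_lt (n : ℕ) : numRho n < numRho (n + 1) := by
  have hk := num_key n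
  unfold numRho
  push_cast
  have e1 : (n : ℝ) + 1 + 1 = n + 2 := by ring
  have e2 : (n : ℝ) + 1 + 2 = n + 3 := by ring
  have e3 : (n : ℝ) + 1 + 3 = n + 4 := by ring
  rw [e1, e2, e3, div_lt_div_iff₀ (by positivity) (by positivity)]
  have h3 : (0 : ℝ) < n + 3 := by positivity
  refine lt_of_mul_lt_mul_right ?_ h3.le
  rw [mul_pow, mul_pow ((n : ℝ) + 2)] at hk
  refine lt_of_eq_of_lt ?_ (hk.trans_eq ?_) <;> ring

theorem num_pos (n : ℕ) : 0 < numRho n := by
  unfold numRho; positivity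

theorem num_le (a b : ℕ) : cst a * cst b ≤ cst (a + b) := by
  have hm : StrictMono numRho := strictMono_nat_of_lt_succ num_lt
  induction b with
  | zero => simp [cst]
  | succ b ih =>
    rw [← add_assoc, num_succ, num_succ, ← mul_assoc]
    exact mul_le_mul ih (hm.monotone (by omega)) (num_pos _).le (cst_pos _).le

theorem cst_mul_lt {a b : ℕ} (ha : 1 ≤ a) (hb : 1 ≤ b) : cst a * cst b < cst (a + b) := by
  have hm : StrictMono numRho := strictMono_nat_of_lt_succ num_lt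
  obtain ⟨b, rfl⟩ := Nat.exists_eq_add_of_le' hb
  rw [← add_assoc, num_succ, num_succ, ← mul_assoc]
  exact mul_lt_mul' (num_le a b) (hm (by omega)) (num_pos _).le (cst_pos _)

end Vale.Agent.P254
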