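import Vale.Agent.P254.Bas

namespace Vale.Agent.P254

open MeasureTheory Matrix

variable {ι κ : Type} [Fintype ι] [Fintype κ] {K : Set (ι → ℝ)} {M : Set (κ → ℝ)}

lemma prod_int (K : Set (ι → ℝ)) (M : Set (κ → ℝ)) (f : (ι → ℝ) → ℝ) (g : (κ → ℝ) → ℝ) :
    ∫ z in prodB K M, f (fun i => z (Sum.inl i)) * g (fun j => z (Sum.inr j)) =
      (∫ x in K, f x) * ∫ y in M, g y := by
  rw [← setIntegral_prod_mul]
  exact (volume_measurePreserving_sumPiEquivProdPi (fun _ : ι ⊕ κ => ℝ)).setIntegral_preimage_emb
    (MeasurableEquiv.measurableEmbedding _) (fun z => f z.1 * g z.2) (K ×ˢ M)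

lemma prod_one (K : Set (ι → ℝ)) : ∫ _ in K, (1 : ℝ) = vol K := by
  simp [vol, Measure.real]

lemma prod_vol : vol (prodB K M) = vol K * vol M := by
  simpa only [mul_one, prod_one] using prod_int K M (fun _ => 1) fun _ => 1

lemma prod_cenl (hM : Body M) (i : ι) : cen (prodB K M) (Sum.inl i) = cen K i := by
  have := prod_int K M (fun x => x i) fun _ => 1
  simp only [mul_one, prod_one] at this
  have h := hM.vol_pos
  rw [cen, this, prod_vol, cen, mul_inv]
  field_simp

lemma prod_cenr (hK : Body K) (j : κ) : cen (prodB K M) (Sum.inr j) = cen M j := by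
  have := prod_int K M (fun _ => 1) fun y => y j
  simp only [one_mul, prod_one] at this
  have h := hK.vol_pos
  rw [cen, this, prod_vol, cen, mul_inv]
  field_simp

lemma prod_zero (hK : Body K) (i : ι) : ∫ x in K, (x i - cen K i) = 0 := by
  have h := hK.vol_pos
  rw [integral_sub ((continuous_apply i).continuousOn.integrableOn_compact hK.1)
    (continuous_const.continuousOn.integrableOn_compact hK.1), setIntegral_const, cen]
  change _ - vol K * _ = _
  field_simp
  ring

theorem prod_body (hK : Body K) (hM : Body M) : Body (prodB K M) := by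
  have e : prodB K M = (Homeomorph.sumArrowHomeomorphProdArrow : (ι ⊕ κ → ℝ) ≃ₜ _) ⁻¹' (K ×ˢ M) :=
    rfl
  refine ⟨?_, fun x hx y hy a b ha hb hab => ⟨hK.2.1 hx.1 hy.1 ha hb hab,
    hM.2.1 hx.2 hy.2 ha hb hab⟩, ?_⟩
  · rw [e]
    exact (Homeomorph.isCompact_preimage _).mpr (hK.1.prod hM.1)
  · rw [e, ← Homeomorph.preimage_interior, interior_prod_eq]
    exact (hK.2.2.prod hM.2.2).preimage (Homeomorph.surjective _)

theorem prod_R [DecidableEq ι] [DecidableEq κ] (hK : Body K) (hM : Body M) :
    R (prodB K M) = R K * R M := by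
  have h1 := hK.vol_pos
  have h2 := hM.vol_pos
  have : cov (prodB K M) = fromBlocks (cov K) 0 0 (cov M) := by
    ext (i | i) (j | j) <;> simp only [cov, of_apply, prod_cenl hM, prod_cenr hK, prod_vol,
      fromBlocks_apply₁₁, fromBlocks_apply₁₂, fromBlocks_apply₂₁, fromBlocks_apply₂₂,
      Matrix.zero_apply]
    · have := prod_int K M (fun x => (x i - cen K i) * (x j - cen K j)) fun _ => 1
      simp only [mul_one, prod_one] at this
      rw [this]
      field_simp
    · rw [prod_int K M (fun x => x i - cen K i) fun y => y j - cen M j, prod_zero hK]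
      simp
    · simp only [mul_comm (_ - cen M i)]
      rw [prod_int K M (fun x => x j - cen K j) fun y => y i - cen M i, prod_zero hK]
      simp
    · have := prod_int K M (fun _ => 1) fun x => (x i - cen M i) * (x j - cen M j)
      simp only [one_mul, prod_one] at this
      rw [this]
      field_simp
  rw [R, this, det_fromBlocks_zero₂₁, prod_vol, R, R]
  field_simp

end Vale.Agent.P254
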