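import Vale.Agent.P254.Simp
import Vale.Agent.P254.Prod
import Vale.Agent.P254.Num

namespace Vale.Agent.P254

open MeasureTheory Matrix

variable {ι κ μ : Type} [Fintype ι] [Fintype κ] [Fintype μ] [DecidableEq ι] [DecidableEq κ]
  [DecidableEq μ]

theorem strong_iff [Nonempty ι] {K : Set (ι → ℝ)} (hK : Body K) :
    Strong K ↔ R K ≤ cst (Fintype.card ι) ∧ (R K = cst (Fintype.card ι) → IsSimplex K) := by
  have hn : (0 : ℝ) < Fintype.card ι := by exact_mod_cast Fintype.card_pos
  have hp : (0 : ℝ) < 1 / (2 * (Fintype.card ι : ℝ)) := by positivity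
  have hL : ∀ X : Set (ι → ℝ), L X = R X ^ (1 / (2 * (Fintype.card ι : ℝ))) := fun _ => rfl
  have h1 := hK.R_pos
  have h2 := cst_pos (Fintype.card ι)
  constructor
  · intro h
    obtain ⟨a, b⟩ := h _ (std_simplex ι)
    rw [hL, hL, simplex_R (std_simplex ι)] at a b
    exact ⟨(Real.rpow_le_rpow_iff h1.le h2.le hp).1 a, fun e => b (by rw [e])⟩
  · rintro ⟨a, b⟩ S hS
    rw [hL, hL, simplex_R hS]
    refine ⟨Real.rpow_le_rpow h1.le a hp.le, fun e => b ?_⟩
    exact le_antisymm a ((Real.rpow_le_rpow_iff h2.le h1.le hp).1 e.ge)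

theorem strong_simplex [Nonempty ι] {K : Set (ι → ℝ)} (hK : IsSimplex K) : Strong K :=
  (strong_iff hK.body).2 ⟨(simplex_R hK).le, fun _ => hK⟩

theorem strong_prod [Nonempty ι] [Nonempty κ] {K : Set (ι → ℝ)} {M : Set (κ → ℝ)} (hK : Body K)
    (hM : Body M) (sK : Strong K) (sM : Strong M) : Strong (prodB K M) := by
  have a := ((strong_iff hK).1 sK).1
  have b := ((strong_iff hM).1 sM).1
  have c : R (prodB K M) < cst (Fintype.card (ι ⊕ κ)) := by
    rw [prod_R hK hM, Fintype.card_sum]
    exact (mul_le_mul a b hM.R_pos.le (cst_pos _).le).trans_lt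
      (cst_mul_lt Fintype.card_pos Fintype.card_pos)
  exact (strong_iff (prod_body hK hM)).2 ⟨c.le, fun e => absurd e c.ne⟩

/-- The embedding of the first factor. -/
def inL (ι κ : Type) : (ι → ℝ) →ₗ[ℝ] (ι ⊕ κ → ℝ) where
  toFun x := Sum.elim x 0
  map_add' x y := by funext a; cases a <;> simp
  map_smul' c x := by funext a; cases a <;> simp

/-- The embedding of the second factor. -/
def inR (ι κ : Type) : (κ → ℝ) →ₗ[ℝ] (ι ⊕ κ → ℝ) where
  toFun y := Sum.elim 0 y
  map_add' x y := by funext a; cases a <;> simp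
  map_smul' c x := by funext a; cases a <;> simp

omit [Fintype ι] [Fintype κ] [DecidableEq ι] [DecidableEq κ] in
theorem fs_hull (X : Set (ι → ℝ)) (Y : Set (κ → ℝ)) :
    freeSum (convexHull ℝ X) (convexHull ℝ Y) =
      convexHull ℝ (inL ι κ '' X ∪ inR ι κ '' Y) := by
  have : freeSum (convexHull ℝ X) (convexHull ℝ Y) =
      convexHull ℝ (inL ι κ '' convexHull ℝ X ∪ inR ι κ '' convexHull ℝ Y) := rfl
  rw [this, LinearMap.image_convexHull, LinearMap.image_convexHull,
    convexHull_convexHull_union_left, convexHull_convexHull_union_right]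

omit [Fintype ι] [Fintype κ] [DecidableEq ι] [DecidableEq κ] in
theorem hull_drop {E α β : Type} [AddCommGroup E] [Module ℝ E] [DecidableEq E] [Fintype α]
    [Fintype β] [DecidableEq α] (u : α → E) (w : β → E) (o : α)
    (h : u o ∈ convexHull ℝ (Set.range w)) :
    ∃ P : Finset E, P.card + 1 ≤ Fintype.card α + Fintype.card β ∧
      convexHull ℝ (Set.range u ∪ Set.range w) = convexHull ℝ (P : Set E) := by
  refine ⟨(Finset.univ.erase o).image u ∪ Finset.univ.image w, ?_, ?_⟩
  · have h1 := Finset.card_union_le ((Finset.univ.erase o).image u) (Finset.univ.image w)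
    have h2 := Finset.card_image_le (s := Finset.univ.erase o) (f := u)
    have h3 := Finset.card_image_le (s := Finset.univ) (f := w)
    have h4 := Finset.card_erase_add_one (Finset.mem_univ o)
    simp only [Finset.card_univ] at h3 h4
    omega
  · apply Set.Subset.antisymm
    · refine convexHull_min ?_ (convex_convexHull _ _)
      rintro _ (⟨p, rfl⟩ | ⟨q, rfl⟩)
      · by_cases hp : p = o
        · subst hp
          refine convexHull_mono ?_ h
          rintro _ ⟨q, rfl⟩
          simp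
        · exact subset_convexHull _ _ (by simp; exact Or.inl ⟨p, hp, rfl⟩)
      · exact subset_convexHull _ _ (by simp)
    · refine convexHull_mono ?_
      intro x hx
      simp only [Finset.coe_union, Finset.coe_image, Set.mem_union, Set.mem_image] at hx
      rcases hx with ⟨p, -, rfl⟩ | ⟨q, -, rfl⟩
      · exact Or.inl ⟨p, rfl⟩
      · exact Or.inr ⟨q, rfl⟩

theorem simplex_drop (u : Option ι → μ → ℝ) (w : Option κ → μ → ℝ)
    (hc : Fintype.card ι + Fintype.card κ = Fintype.card μ)
    (h : (∃ o, u o ∈ convexHull ℝ (Set.range w)) ∨ ∃ o, w o ∈ convexHull ℝ (Set.range u))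
    (hi : (interior (convexHull ℝ (Set.range u ∪ Set.range w))).Nonempty) :
    IsSimplex (convexHull ℝ (Set.range u ∪ Set.range w)) := by
  classical
  rcases h with ⟨o, h⟩ | ⟨o, h⟩
  · obtain ⟨P, h1, h2⟩ := hull_drop u w o h
    rw [h2] at hi ⊢
    simp only [Fintype.card_option] at h1
    exact simplex_of_card P (by omega) hi
  · obtain ⟨P, h1, h2⟩ := hull_drop w u o h
    rw [Set.union_comm, h2] at hi ⊢
    simp only [Fintype.card_option] at h1
    exact simplex_of_card P (by omega) hi

theorem strong_fs [Nonempty ι] [Nonempty κ] {K : Set (ι → ℝ)} {M : Set (κ → ℝ)} (hK : Body K)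
    (hM : Body M) (h0 : (0 : ι → ℝ) ∈ K) (h0' : (0 : κ → ℝ) ∈ M) (sK : Strong K)
    (sM : Strong M) : Strong (freeSum K M) := by
  obtain ⟨a, a'⟩ := (strong_iff hK).1 sK
  obtain ⟨b, b'⟩ := (strong_iff hM).1 sM
  have hF := fs_body hK hM h0 h0'
  have eF := hF.R_eq
  rw [fs_vol hK hM h0 h0', fs_sv hK hM h0 h0', fs_Am hK hM h0 h0'] at eF
  have eK := hK.R_eq
  have eM := hM.R_eq
  have pK := hK.R_pos
  have pM := hM.R_pos
  have cK := cst_pos (Fintype.card ι)
  have cM := cst_pos (Fintype.card κ)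
  have cF := cst_pos (Fintype.card (ι ⊕ κ))
  have vK : 0 < ((Fintype.card ι).factorial : ℝ) * vol K := by have := hK.vol_pos; positivity
  have vM : 0 < ((Fintype.card κ).factorial : ℝ) * vol M := by have := hM.vol_pos; positivity
  set x := Dq (Am K) (sv K) / (((Fintype.card ι).factorial : ℝ) * vol K) ^ 2 with hx
  set y := Dq (Am M) (sv M) / (((Fintype.card κ).factorial : ℝ) * vol M) ^ 2 with hy
  have x0 : 0 < x := by rw [eK] at pK; exact (mul_pos_iff_of_pos_left cK).1 pK
  have y0 : 0 < y := by rw [eM] at pM; exact (mul_pos_iff_of_pos_left cM).1 pM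
  have x1 : x ≤ 1 := by rw [eK] at a; exact (mul_le_iff_le_one_right cK).1 a
  have y1 : y ≤ 1 := by rw [eM] at b; exact (mul_le_iff_le_one_right cM).1 b
  have exy : x * y = Dq (Am K) (sv K) * Dq (Am M) (sv M) /
      (((Fintype.card ι).factorial : ℝ) * vol K *
        (((Fintype.card κ).factorial : ℝ) * vol M)) ^ 2 := by
    rw [hx, hy, div_mul_div_comm, ← mul_pow]
  have hle : R (freeSum K M) ≤ cst (Fintype.card (ι ⊕ κ)) * (x * y) := by
    rw [eF, exy]
    have := Dq_le hK.AmPD hM.AmPD (kls hK h0) (kls hM h0')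
    gcongr
  have xy1 : x * y ≤ 1 := mul_le_one₀ x1 y0.le y1
  refine (strong_iff hF).2 ⟨hle.trans (by nlinarith), fun e => ?_⟩
  have xy : 1 ≤ x * y := by
    rw [e] at hle; exact (le_mul_iff_one_le_right cF).1 hle
  have hx1 : x = 1 := le_antisymm x1 (by nlinarith)
  have hy1 : y = 1 := le_antisymm y1 (by nlinarith)
  obtain ⟨v, hv, rfl⟩ := a' (by rw [eK, hx1, mul_one])
  obtain ⟨w, hw, rfl⟩ := b' (by rw [eM, hy1, mul_one])
  by_cases hz : (∀ o, v o ≠ 0) ∧ ∀ o, w o ≠ 0
  · exfalso
    have := Dq_lt hK.AmPD hM.AmPD (simplex_kls hv h0 hz.1) (simplex_kls hw h0' hz.2)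
    have hlt : R (freeSum (convexHull ℝ (Set.range v)) (convexHull ℝ (Set.range w))) <
        cst (Fintype.card (ι ⊕ κ)) * (x * y) := by
      rw [eF, exy]
      gcongr
    rw [e, hx1, hy1] at hlt
    simp at hlt
  · have hi := hF.2.2
    rw [fs_hull, ← Set.range_comp, ← Set.range_comp] at hi ⊢
    refine simplex_drop _ _ (by simp) ?_ hi
    rw [not_and_or] at hz
    rcases hz with hz | hz
    · push Not at hz
      obtain ⟨o, ho⟩ := hz
      refine Or.inl ⟨o, ?_⟩
      rw [Set.range_comp, ← LinearMap.image_convexHull]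
      exact ⟨0, h0', by simp [ho]⟩
    · push Not at hz
      obtain ⟨o, ho⟩ := hz
      refine Or.inr ⟨o, ?_⟩
      rw [Set.range_comp, ← LinearMap.image_convexHull]
      exact ⟨0, h0, by simp [ho]⟩

theorem strong_aff [Nonempty ι] (e : ι ≃ κ) (T : Matrix κ ι ℝ) (hT : (T.submatrix e id).det ≠ 0)
    (c : κ → ℝ) {K : Set (ι → ℝ)} (hK : Body K) (sK : Strong K)
    (hs : IsSimplex K → IsSimplex (aff T c '' K)) : Strong (aff T c '' K) := by
  haveI : Nonempty κ := ⟨e (Classical.arbitrary ι)⟩
  obtain ⟨a, a'⟩ := (strong_iff hK).1 sK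
  refine (strong_iff (body_aff e T hT c hK)).2 ?_
  rw [R_aff e T hT c hK, ← Fintype.card_congr e]
  exact ⟨a, fun h => hs (a' h)⟩

omit [Fintype μ] [DecidableEq μ] in
theorem aff_std (u : Option ι → μ → ℝ) (p : Option ι) :
    aff (Matrix.of fun a i => u (some i) a - u none a) (u none) (stdV ι p) = u p := by
  funext a
  cases p with
  | none => simp [aff, stdV]
  | some i => simp [aff, stdV]

theorem strong_two [Nonempty μ] (e : ι ⊕ κ ≃ μ) (u : Option ι → μ → ℝ) (w : Option κ → μ → ℝ)
    {o : μ → ℝ} (hu : o ∈ convexHull ℝ (Set.range u)) (hw : o ∈ convexHull ℝ (Set.range w))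
    (hi : (interior (convexHull ℝ (Set.range u ∪ Set.range w))).Nonempty) :
    Strong (convexHull ℝ (Set.range u ∪ Set.range w)) := by
  have hc : Fintype.card ι + Fintype.card κ = Fintype.card μ := by
    rw [← Fintype.card_congr e, Fintype.card_sum]
  rcases isEmpty_or_nonempty ι with hι | hι
  · refine strong_simplex (simplex_drop u w hc (Or.inl ⟨none, ?_⟩) hi)
    have : Set.range u = {u none} := by
      ext x; simp [Option.exists, eq_comm]
    rw [this, convexHull_singleton] at hu
    rwa [← Set.mem_singleton_iff.1 hu]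
  rcases isEmpty_or_nonempty κ with hκ | hκ
  · refine strong_simplex (simplex_drop u w hc (Or.inr ⟨none, ?_⟩) hi)
    have : Set.range w = {w none} := by
      ext x; simp [Option.exists, eq_comm]
    rw [this, convexHull_singleton] at hw
    rwa [← Set.mem_singleton_iff.1 hw]
  set T₁ : Matrix μ ι ℝ := Matrix.of fun a i => u (some i) a - u none a with hT₁
  set T₂ : Matrix μ κ ℝ := Matrix.of fun a i => w (some i) a - w none a with hT₂
  have e1 : convexHull ℝ (Set.range u) = aff T₁ (u none) '' stdS ι := by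
    rw [stdS, hull_aff, ← Set.range_comp]
    congr 2
    funext p
    exact (aff_std u p).symm
  have e2 : convexHull ℝ (Set.range w) = aff T₂ (w none) '' stdS κ := by
    rw [stdS, hull_aff, ← Set.range_comp]
    congr 2
    funext p
    exact (aff_std w p).symm
  rw [e1] at hu
  rw [e2] at hw
  obtain ⟨α, hα, hαo⟩ := hu
  obtain ⟨β, hβ, hβo⟩ := hw
  have d1 : ((1 : Matrix ι ι ℝ).submatrix (Equiv.refl ι) id).det ≠ 0 := by simp
  have d2 : ((1 : Matrix κ κ ℝ).submatrix (Equiv.refl κ) id).det ≠ 0 := by simp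
  have s1 := simplex_aff _ _ d1 (-α) (std_simplex ι)
  have s2 := simplex_aff _ _ d2 (-β) (std_simplex κ)
  have z1 : (0 : ι → ℝ) ∈ aff (1 : Matrix ι ι ℝ) (-α) '' stdS ι := ⟨α, hα, by simp [aff]⟩
  have z2 : (0 : κ → ℝ) ∈ aff (1 : Matrix κ κ ℝ) (-β) '' stdS κ := ⟨β, hβ, by simp [aff]⟩
  have sF := strong_fs s1.body s2.body z1 z2 (strong_simplex s1) (strong_simplex s2)
  have bF := fs_body s1.body s2.body z1 z2
  have key : aff (fromCols T₁ T₂) o '' freeSum (aff (1 : Matrix ι ι ℝ) (-α) '' stdS ι)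
      (aff (1 : Matrix κ κ ℝ) (-β) '' stdS κ) = convexHull ℝ (Set.range u ∪ Set.range w) := by
    rw [stdS, stdS, hull_aff, hull_aff, fs_hull, hull_aff, Set.image_union, ← Set.range_comp,
      ← Set.range_comp, ← Set.range_comp, ← Set.range_comp, ← Set.range_comp, ← Set.range_comp]
    congr 3
    · funext p
      rw [← aff_std u p, ← hαo]
      simp only [Function.comp, aff, inL, LinearMap.coe_mk, AddHom.coe_mk, one_mulVec,
        fromCols_mulVec_sumElim, mulVec_zero, add_zero, mulVec_add, mulVec_neg, ← hT₁]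
      abel
    · funext p
      rw [← aff_std w p, ← hβo]
      simp only [Function.comp, aff, inR, LinearMap.coe_mk, AddHom.coe_mk, one_mulVec,
        fromCols_mulVec_sumElim, mulVec_zero, zero_add, mulVec_add, mulVec_neg, ← hT₂]
      abel
  rw [← key] at hi ⊢
  have hd := det_ne_of_int e _ _ hi
  exact strong_aff e _ hd o bF sF (simplex_aff e _ hd o)

theorem strong_few {n : ℕ} (hn : 1 ≤ n) (f : Fin (n + 2) → Fin n → ℝ)
    (hi : (interior (convexHull ℝ (Set.range f))).Nonempty) :
    Strong (convexHull ℝ (Set.range f)) := by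
  classical
  haveI : Nonempty (Fin n) := ⟨⟨0, hn⟩⟩
  have hd : ¬ AffineIndependent ℝ f := fun h => by
    have h1 := h.card_le_finrank_succ
    have h2 := Submodule.finrank_le (vectorSpan ℝ (Set.range f))
    simp only [Fintype.card_fin, Module.finrank_fintype_fun_eq_card] at h1 h2
    omega
  obtain ⟨I, o, h1, h2⟩ := Convex.radon_partition hd
  obtain ⟨_, i0, hi0, -⟩ := convexHull_nonempty_iff.1 ⟨o, h1⟩
  obtain ⟨_, j0, hj0, -⟩ := convexHull_nonempty_iff.1 ⟨o, h2⟩
  let A := {i : Fin (n + 2) // i ∈ I ∧ i ≠ i0}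
  let B := {i : Fin (n + 2) // i ∈ Iᶜ ∧ i ≠ j0}
  let u : Option A → Fin n → ℝ := fun p => f (p.elim i0 Subtype.val)
  let w : Option B → Fin n → ℝ := fun p => f (p.elim j0 Subtype.val)
  have ru : Set.range u = f '' I := by
    ext x
    constructor
    · rintro ⟨_ | p, rfl⟩
      · exact ⟨i0, hi0, rfl⟩
      · exact ⟨p.1, p.2.1, rfl⟩
    · rintro ⟨i, hi, rfl⟩
      by_cases h : i = i0
      · exact ⟨none, by simp [u, h]⟩
      · exact ⟨some ⟨i, hi, h⟩, rfl⟩
  have rw' : Set.range w = f '' Iᶜ := by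
    ext x
    constructor
    · rintro ⟨_ | p, rfl⟩
      · exact ⟨j0, hj0, rfl⟩
      · exact ⟨p.1, p.2.1, rfl⟩
    · rintro ⟨i, hi, rfl⟩
      by_cases h : i = j0
      · exact ⟨none, by simp [w, h]⟩
      · exact ⟨some ⟨i, hi, h⟩, rfl⟩
  have hc : Fintype.card (A ⊕ B) = Fintype.card (Fin n) := by
    have c1 : Fintype.card A + 1 = (Finset.univ.filter (· ∈ I)).card := by
      rw [← Finset.card_erase_add_one (a := i0) (by simpa using hi0), Fintype.card_subtype]
      congr 2
      ext x; simp [and_comm]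
    have c2 : Fintype.card B + 1 = (Finset.univ.filter (fun x => ¬ x ∈ I)).card := by
      rw [← Finset.card_erase_add_one (a := j0) (by simpa using hj0), Fintype.card_subtype]
      congr 2
      ext x; simp [and_comm]
    have c3 := Finset.card_filter_add_card_filter_not (s := Finset.univ) (fun x => x ∈ I)
    simp only [Fintype.card_sum, Finset.card_univ, Fintype.card_fin] at c3 ⊢
    omega
  have hr : Set.range f = Set.range u ∪ Set.range w := by
    rw [ru, rw', ← Set.image_union, Set.union_compl_self, Set.image_univ]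
  rw [hr] at hi ⊢
  exact strong_two (Fintype.equivOfCardEq hc) u w (ru ▸ h1) (rw' ▸ h2) hi

end Vale.Agent.P254
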