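import Vale.Agent.P254.Bas

namespace Vale.Agent.P254

open Matrix

variable {ι κ : Type} [Fintype ι] [Fintype κ] [DecidableEq ι] [DecidableEq κ]

theorem Mat_Dq_eq (A : Matrix ι ι ℝ) (s φ : ι → ℝ) (h : A *ᵥ φ = s) :
    Dq A s = A.det * ((Fintype.card ι : ℝ) + 1 - φ ⬝ᵥ s) := by
  unfold Dq
  set c : ℝ := ((Fintype.card ι : ℝ) + 1)⁻¹ with hc
  have e : A - c • vecMulVec s s =
      A * (1 + replicateCol Unit ((-c) • φ) * replicateRow Unit s) := by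
    rw [← vecMulVec_eq, Matrix.mul_add, Matrix.mul_one, Matrix.mul_vecMulVec, mulVec_smul, h]
    ext i j
    simp [vecMulVec_apply]
    ring
  rw [e, det_mul, det_one_add_replicateCol_mul_replicateRow, dotProduct_smul, dotProduct_comm s φ,
    smul_eq_mul, hc]
  have : (Fintype.card ι : ℝ) + 1 ≠ 0 := by positivity
  field_simp
  ring

theorem Mat_solve {A : Matrix ι ι ℝ} (hA : A.PosDef) (s : ι → ℝ) : ∃ φ, A *ᵥ φ = s := by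
  refine ⟨A⁻¹ *ᵥ s, ?_⟩
  rw [mulVec_mulVec, Matrix.mul_nonsing_inv _ (isUnit_iff_ne_zero.2 hA.det_pos.ne'), one_mulVec]

theorem Mat_block (A : Matrix ι ι ℝ) (B : Matrix κ κ ℝ) (s φ : ι → ℝ) (u ψ : κ → ℝ)
    (h1 : A *ᵥ φ = s) (h2 : B *ᵥ ψ = u) :
    Dq A s * Dq B u - Dq (fromBlocks A 0 0 B) (Sum.elim s u) =
      A.det * B.det * (((Fintype.card ι : ℝ) - φ ⬝ᵥ s) * ((Fintype.card κ : ℝ) - ψ ⬝ᵥ u)) := by
  have h3 : fromBlocks A 0 0 B *ᵥ Sum.elim φ ψ = Sum.elim s u := by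
    rw [fromBlocks_mulVec]
    simp [h1, h2]
  rw [Mat_Dq_eq A s φ h1, Mat_Dq_eq B u ψ h2, Mat_Dq_eq _ _ _ h3, det_fromBlocks_zero₂₁,
    sumElim_dotProduct_sumElim, Fintype.card_sum]
  push_cast
  ring

theorem Mat_q_le {q n : ℝ} (hn : 0 ≤ n) (h : q ^ 2 ≤ n * q) : 0 ≤ n - q := by
  by_contra hh
  have : n < q := by linarith
  nlinarith

theorem Mat_q_lt {q n : ℝ} (hn : 0 ≤ n) (h : q ^ 2 < n * q) : 0 < n - q := by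
  by_contra hh
  have : n ≤ q := by linarith
  nlinarith

theorem Dq_le {A : Matrix ι ι ℝ} {B : Matrix κ κ ℝ} (hA : A.PosDef) (hB : B.PosDef)
    {s : ι → ℝ} {u : κ → ℝ}
    (hs : ∀ φ, (φ ⬝ᵥ s) ^ 2 ≤ (Fintype.card ι : ℝ) * (φ ⬝ᵥ A *ᵥ φ))
    (hu : ∀ φ, (φ ⬝ᵥ u) ^ 2 ≤ (Fintype.card κ : ℝ) * (φ ⬝ᵥ B *ᵥ φ)) :
    Dq (fromBlocks A 0 0 B) (Sum.elim s u) ≤ Dq A s * Dq B u := by
  obtain ⟨φ, h1⟩ := Mat_solve hA s
  obtain ⟨ψ, h2⟩ := Mat_solve hB u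
  have k := Mat_block A B s φ u ψ h1 h2
  have a1 := hs φ
  have a2 := hu ψ
  rw [h1] at a1
  rw [h2] at a2
  have b1 := Mat_q_le (Nat.cast_nonneg _) a1
  have b2 := Mat_q_le (Nat.cast_nonneg _) a2
  have := mul_nonneg (mul_pos hA.det_pos hB.det_pos).le (mul_nonneg b1 b2)
  linarith

theorem Mat_strict [Nonempty ι] {A : Matrix ι ι ℝ} {s φ : ι → ℝ} (h1 : A *ᵥ φ = s)
    (hs : ∀ φ, φ ≠ 0 → (φ ⬝ᵥ s) ^ 2 < (Fintype.card ι : ℝ) * (φ ⬝ᵥ A *ᵥ φ)) :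
    0 < (Fintype.card ι : ℝ) - φ ⬝ᵥ s := by
  by_cases h0 : φ = 0
  · rw [h0, zero_dotProduct, sub_zero]
    exact_mod_cast Fintype.card_pos
  · have a1 := hs φ h0
    rw [h1] at a1
    exact Mat_q_lt (Nat.cast_nonneg _) a1

theorem Dq_lt [Nonempty ι] [Nonempty κ] {A : Matrix ι ι ℝ} {B : Matrix κ κ ℝ} (hA : A.PosDef)
    (hB : B.PosDef) {s : ι → ℝ} {u : κ → ℝ}
    (hs : ∀ φ, φ ≠ 0 → (φ ⬝ᵥ s) ^ 2 < (Fintype.card ι : ℝ) * (φ ⬝ᵥ A *ᵥ φ))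
    (hu : ∀ φ, φ ≠ 0 → (φ ⬝ᵥ u) ^ 2 < (Fintype.card κ : ℝ) * (φ ⬝ᵥ B *ᵥ φ)) :
    Dq (fromBlocks A 0 0 B) (Sum.elim s u) < Dq A s * Dq B u := by
  obtain ⟨φ, h1⟩ := Mat_solve hA s
  obtain ⟨ψ, h2⟩ := Mat_solve hB u
  have k := Mat_block A B s φ u ψ h1 h2
  have := mul_pos (mul_pos hA.det_pos hB.det_pos) (mul_pos (Mat_strict h1 hs) (Mat_strict h2 hu))
  linarith

theorem Dq_one : Dq (1 : Matrix ι ι ℝ) (fun _ => 1) = 1 := by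
  rw [Mat_Dq_eq 1 (fun _ => 1) (fun _ => 1) (one_mulVec _), det_one]
  simp [dotProduct]

end Vale.Agent.P254
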