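import Vale.Agent.P254.Bas

namespace Vale.Agent.P254

open MeasureTheory Matrix
open scoped Pointwise

variable {ι κ : Type} [Fintype ι] [Fintype κ]

theorem scal (K : Set (ι → ℝ)) (f : (ι → ℝ) → ℝ) (i : ℕ)
    (hf : ∀ t : ℝ, 0 < t → ∀ x, f (t • x) = t ^ i * f x) {t : ℝ} (ht : 0 < t) :
    ∫ x in t • K, f x = t ^ (Fintype.card ι + i) * ∫ x in K, f x := by
  have h := Measure.setIntegral_comp_smul_of_pos (volume : Measure (ι → ℝ)) f K ht
  rw [Module.finrank_fintype_fun_eq_card, smul_eq_mul] at h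
  simp only [hf t ht, integral_const_mul] at h
  have h0 : 0 < t ^ Fintype.card ι := pow_pos ht _
  rw [pow_add, mul_assoc, h, ← mul_assoc, mul_inv_cancel₀ h0.ne', one_mul]

theorem Scal_expand {S : Set (ι → ℝ)} (hS : IsCompact S) {g : (ι → ℝ) → ℝ} (hg : Continuous g)
    (c : ℝ) : ∫ x in S, (g x - c) ^ 2 =
      (∫ x in S, g x ^ 2) - 2 * c * (∫ x in S, g x) + c ^ 2 * ∫ _x in S, (1 : ℝ) := by
  have i1 : IntegrableOn (fun x => g x ^ 2) S := (hg.pow 2).continuousOn.integrableOn_compact hS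
  have i2 : IntegrableOn (fun x => 2 * c * g x) S :=
    (continuous_const.mul hg).continuousOn.integrableOn_compact hS
  have i3 : IntegrableOn (fun _ : ι → ℝ => c ^ 2 * (1 : ℝ)) S :=
    continuous_const.continuousOn.integrableOn_compact hS
  have i4 : IntegrableOn (fun x => g x ^ 2 - 2 * c * g x) S := i1.sub i2
  rw [← integral_const_mul, ← integral_const_mul, ← integral_sub i1 i2, ← integral_add i4 i3]
  exact integral_congr_ae (Filter.Eventually.of_forall fun x => by beta_reduce; ring)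

theorem Scal_deriv (n : ℕ) (A B C : ℝ)
    (h : ∀ t : ℝ, 0 < t → t < 1 → t ^ (n + 2) * A - t ^ (n + 1) * B + t ^ n * C ≤ A - B + C) :
    0 ≤ ((n : ℝ) + 2) * A - ((n : ℝ) + 1) * B + n * C := by
  have hd : HasDerivAt (fun t : ℝ => t ^ (n + 2) * A - t ^ (n + 1) * B + t ^ n * C)
      (((n : ℝ) + 2) * A - ((n : ℝ) + 1) * B + n * C) 1 := by
    have := (((hasDerivAt_pow (n + 2) (1 : ℝ)).mul_const A).sub
      ((hasDerivAt_pow (n + 1) (1 : ℝ)).mul_const B)).add ((hasDerivAt_pow n (1 : ℝ)).mul_const C)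
    simp only [one_pow, mul_one, Nat.cast_add, Nat.cast_ofNat, Nat.cast_one] at this
    exact this
  refine ge_of_tendsto hd.tendsto_slope_zero_left ?_
  filter_upwards [Ioo_mem_nhdsLT (show (-1 : ℝ) < 0 by norm_num)] with t ht
  have h1 := h (1 + t) (by linarith [ht.1]) (by linarith [ht.2])
  simp only [one_pow, one_mul, smul_eq_mul]
  exact mul_nonneg_of_nonpos_of_nonpos (inv_nonpos.2 ht.2.le) (by linarith)

theorem kls {K : Set (ι → ℝ)} (h : Body K) (h0 : (0 : ι → ℝ) ∈ K) (φ : ι → ℝ) :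
    (φ ⬝ᵥ sv K) ^ 2 ≤ (Fintype.card ι : ℝ) * (φ ⬝ᵥ Am K *ᵥ φ) := by
  have hV := h.vol_pos
  have hK := h.1
  have hg : Continuous fun x : ι → ℝ => φ ⬝ᵥ x := by
    unfold dotProduct
    fun_prop
  have hone : ∫ _x in K, (1 : ℝ) = vol K := by
    simp [vol, Measure.real]
  have key : ∀ c : ℝ, 0 ≤ ((Fintype.card ι : ℝ) + 2) * (∫ x in K, (φ ⬝ᵥ x) ^ 2) -
      ((Fintype.card ι : ℝ) + 1) * (2 * c * ∫ x in K, φ ⬝ᵥ x) +
      (Fintype.card ι : ℝ) * (c ^ 2 * vol K) := by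
    intro c
    refine Scal_deriv _ _ _ _ fun t ht0 ht1 => ?_
    have hsub : t • K ⊆ K := by
      rintro _ ⟨x, hx, rfl⟩
      exact h.2.1.smul_mem_of_zero_mem h0 hx ⟨ht0.le, ht1.le⟩
    have hmono : ∫ x in t • K, (φ ⬝ᵥ x - c) ^ 2 ≤ ∫ x in K, (φ ⬝ᵥ x - c) ^ 2 :=
      setIntegral_mono_set (((hg.sub continuous_const).pow 2).continuousOn.integrableOn_compact hK)
        (Filter.Eventually.of_forall fun x => sq_nonneg _) hsub.eventuallyLE
    rw [Scal_expand (hK.smul t) hg c, Scal_expand hK hg c,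
      scal K (fun x => (φ ⬝ᵥ x) ^ 2) 2
        (fun t _ x => by rw [dotProduct_smul, smul_eq_mul, mul_pow]) ht0,
      scal K (fun x => φ ⬝ᵥ x) 1 (fun t _ x => by rw [dotProduct_smul, smul_eq_mul, pow_one]) ht0,
      scal K (fun _ => (1 : ℝ)) 0 (fun t _ x => by simp) ht0, hone, add_zero] at hmono
    linarith
  have ii : ∀ i, IntegrableOn (fun x : ι → ℝ => φ i * x i) K := fun i =>
    (show Continuous fun x : ι → ℝ => φ i * x i by fun_prop).continuousOn.integrableOn_compact hK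
  have iij : ∀ i j, IntegrableOn (fun x : ι → ℝ => φ i * φ j * (x i * x j)) K := fun i j =>
    (show Continuous fun x : ι → ℝ => φ i * φ j * (x i * x j) by
      fun_prop).continuousOn.integrableOn_compact hK
  have e1 : ∫ x in K, φ ⬝ᵥ x = ∑ i, φ i * ∫ x in K, x i := by
    unfold dotProduct
    rw [integral_finsetSum _ fun i _ => ii i]
    exact Finset.sum_congr rfl fun i _ => integral_const_mul _ _
  have e2 : ∫ x in K, (φ ⬝ᵥ x) ^ 2 = ∑ i, ∑ j, φ i * φ j * ∫ x in K, x i * x j := by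
    have : ∀ x : ι → ℝ, (φ ⬝ᵥ x) ^ 2 = ∑ i, ∑ j, φ i * φ j * (x i * x j) := by
      intro x
      unfold dotProduct
      rw [sq, Finset.sum_mul_sum]
      exact Finset.sum_congr rfl fun i _ => Finset.sum_congr rfl fun j _ => by ring
    simp only [this]
    rw [integral_finsetSum _ fun i _ => integrable_finsetSum _ fun j _ => iij i j]
    refine Finset.sum_congr rfl fun i _ => ?_
    rw [integral_finsetSum _ fun j _ => iij i j]
    exact Finset.sum_congr rfl fun j _ => integral_const_mul _ _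
  have e3 : φ ⬝ᵥ sv K = ((Fintype.card ι : ℝ) + 1) * ((vol K)⁻¹ * ∫ x in K, φ ⬝ᵥ x) := by
    rw [e1, Finset.mul_sum, Finset.mul_sum]
    unfold dotProduct sv cen
    exact Finset.sum_congr rfl fun i _ => by ring
  have e4 : φ ⬝ᵥ Am K *ᵥ φ = ((Fintype.card ι : ℝ) + 1) * ((Fintype.card ι : ℝ) + 2) *
      ((vol K)⁻¹ * ∫ x in K, (φ ⬝ᵥ x) ^ 2) - (φ ⬝ᵥ sv K) ^ 2 := by
    rw [e2, sq, Finset.mul_sum, Finset.mul_sum]
    unfold mulVec dotProduct Am
    rw [Finset.sum_mul_sum, ← Finset.sum_sub_distrib]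
    refine Finset.sum_congr rfl fun i _ => ?_
    rw [Finset.mul_sum, Finset.mul_sum, Finset.mul_sum, ← Finset.sum_sub_distrib]
    exact Finset.sum_congr rfl fun j _ => by simp only [Matrix.of_apply]; ring
  rw [e4, e3]
  generalize (∫ x in K, (φ ⬝ᵥ x) ^ 2) = F2 at key ⊢
  generalize (∫ x in K, φ ⬝ᵥ x) = F1 at key ⊢
  generalize vol K = V at key hV ⊢
  have hn : (0 : ℝ) ≤ Fintype.card ι := Nat.cast_nonneg _
  generalize (Fintype.card ι : ℝ) = n at key hn ⊢
  have hd := discrim_le_zero (a := n * V) (b := -(2 * (n + 1) * F1)) (c := (n + 2) * F2)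
    fun x => by linarith [key x]
  rw [discrim] at hd
  have hi : 0 < V⁻¹ := inv_pos.2 hV
  have h1 : V⁻¹ * F2 = V⁻¹ ^ 2 * (V * F2) := by field_simp
  have h2 : 0 ≤ (n + 1) * V⁻¹ ^ 2 * (n * (n + 2) * (V * F2) - (n + 1) ^ 2 * F1 ^ 2) :=
    mul_nonneg (by positivity) (by linarith)
  rw [h1]
  linarith

end Vale.Agent.P254
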