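import Vale.Agent.P254.Std
import Vale.Agent.P254.AffR
import Vale.Agent.P254.Mat

namespace Vale.Agent.P254

open MeasureTheory Matrix

variable {ι : Type} [Fintype ι] [DecidableEq ι]

/-- The edge matrix of a simplex. -/
def simpT (v : Option ι → ι → ℝ) : Matrix ι ι ℝ := Matrix.of fun a i => v (some i) a - v none a

theorem simp_aff_std (v : Option ι → ι → ℝ) (o : Option ι) :
    aff (simpT v) (v none) (stdV ι o) = v o := by
  cases o with
  | none => simp [aff, stdV]
  | some i =>
    ext a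
    simp [aff, stdV, simpT, Matrix.mulVec_single]

theorem simp_hull (v : Option ι → ι → ℝ) :
    convexHull ℝ (Set.range v) = aff (simpT v) (v none) '' stdS ι := by
  unfold stdS
  rw [hull_aff, ← Set.range_comp]
  congr 2
  funext o
  exact (simp_aff_std v o).symm

theorem simp_det {v : Option ι → ι → ℝ} (hv : AffineIndependent ℝ v) :
    ((simpT v).submatrix (Equiv.refl ι) id).det ≠ 0 := by
  have hb : Body (convexHull ℝ (Set.range v)) := IsSimplex.body ⟨v, hv, rfl⟩
  apply det_ne_of_int (Equiv.refl ι) (simpT v) (v none) (K := stdS ι)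
  rw [← simp_hull]
  exact hb.2.2

theorem simplex_R {S : Set (ι → ℝ)} (h : IsSimplex S) : R S = cst (Fintype.card ι) := by
  obtain ⟨v, hv, rfl⟩ := h
  obtain ⟨hb, hvol, hsv, hAm⟩ := std_mom ι
  rw [simp_hull, R_aff (Equiv.refl ι) (simpT v) (simp_det hv) (v none) hb, hb.R_eq, hvol, hsv, hAm,
    Dq_one]
  simp

theorem simp_m1 (i : ι) :
    ∫ x in stdS ι, x i = vol (stdS ι) / ((Fintype.card ι : ℝ) + 1) := by
  obtain ⟨hb, -, hsv, -⟩ := std_mom ι
  have hV := hb.vol_pos
  have h := congrFun hsv i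
  unfold sv cen at h
  have hN : (0 : ℝ) < (Fintype.card ι : ℝ) + 1 := by positivity
  field_simp at h ⊢
  linarith

theorem simp_m2 (i j : ι) :
    ∫ x in stdS ι, x i * x j = vol (stdS ι) * (1 + if i = j then 1 else 0) /
      (((Fintype.card ι : ℝ) + 1) * ((Fintype.card ι : ℝ) + 2)) := by
  obtain ⟨hb, -, hsv, hAm⟩ := std_mom ι
  have hV := hb.vol_pos
  have h := congrFun (congrFun hAm i) j
  unfold Am at h
  rw [hsv] at h
  simp only [Matrix.of_apply, Matrix.one_apply, mul_one] at h
  have hN : (0 : ℝ) < (Fintype.card ι : ℝ) + 1 := by positivity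
  have hN2 : (0 : ℝ) < (Fintype.card ι : ℝ) + 2 := by positivity
  rw [← h]
  field_simp
  ring

theorem simp_int {f : (ι → ℝ) → ℝ} (hf : Continuous f) : IntegrableOn f (stdS ι) volume :=
  hf.continuousOn.integrableOn_compact (std_mom ι).1.1

theorem simp_const (r : ℝ) : ∫ _x in stdS ι, r = vol (stdS ι) * r := by
  rw [setIntegral_const]; rfl

theorem simp_lin (p : ι → ℝ) (r : ℝ) :
    ∫ x in stdS ι, (∑ i, p i * x i + r) =
      vol (stdS ι) * ((∑ i, p i) / ((Fintype.card ι : ℝ) + 1) + r) := by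
  rw [integral_add (simp_int (by fun_prop)) (simp_int (by fun_prop)),
    integral_finset_sum _ (fun i _ => simp_int (by fun_prop)), simp_const]
  simp_rw [integral_const_mul, simp_m1]
  rw [← Finset.sum_mul]
  ring

theorem simp_quad (p q : ι → ℝ) (r s : ℝ) :
    ∫ x in stdS ι, (∑ i, p i * x i + r) * (∑ i, q i * x i + s) =
      vol (stdS ι) * (((∑ i, p i) * (∑ i, q i) + ∑ i, p i * q i) /
        (((Fintype.card ι : ℝ) + 1) * ((Fintype.card ι : ℝ) + 2)) +
        ((∑ i, p i) * s + r * (∑ i, q i)) / ((Fintype.card ι : ℝ) + 1) + r * s) := by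
  have e : ∀ x : ι → ℝ, (∑ i, p i * x i + r) * (∑ i, q i * x i + s) =
      ∑ i, ∑ j, (p i * q j) * (x i * x j) + (∑ i, (p i * s + r * q i) * x i + r * s) := by
    intro x
    have h1 : (∑ i, p i * x i) * (∑ i, q i * x i) = ∑ i, ∑ j, (p i * q j) * (x i * x j) := by
      rw [Finset.sum_mul_sum]
      refine Finset.sum_congr rfl fun i _ => Finset.sum_congr rfl fun j _ => by ring
    have h2 : ∑ i, (p i * s + r * q i) * x i = (∑ i, p i * x i) * s + r * ∑ i, q i * x i := by
      rw [Finset.sum_mul, Finset.mul_sum, ← Finset.sum_add_distrib]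
      refine Finset.sum_congr rfl fun i _ => by ring
    rw [← h1, h2]; ring
  simp_rw [e]
  rw [integral_add (simp_int (by fun_prop)) (simp_int (by fun_prop)), simp_lin,
    integral_finset_sum _ (fun i _ => simp_int (by fun_prop))]
  have h3 : ∀ i, ∫ x in stdS ι, ∑ j, (p i * q j) * (x i * x j) =
      vol (stdS ι) * (p i * (∑ j, q j) + p i * q i) /
        (((Fintype.card ι : ℝ) + 1) * ((Fintype.card ι : ℝ) + 2)) := by
    intro i
    rw [integral_finset_sum _ (fun j _ => simp_int (by fun_prop))]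
    simp_rw [integral_const_mul, simp_m2]
    have h4 : ∀ j, p i * q j * (vol (stdS ι) * (1 + if i = j then 1 else 0) /
        (((Fintype.card ι : ℝ) + 1) * ((Fintype.card ι : ℝ) + 2))) =
        (vol (stdS ι) / (((Fintype.card ι : ℝ) + 1) * ((Fintype.card ι : ℝ) + 2))) *
          (p i * q j + if i = j then p i * q j else 0) := by
      intro j
      split_ifs <;> ring
    simp_rw [h4]
    rw [← Finset.mul_sum, Finset.sum_add_distrib, Finset.sum_ite_eq, ← Finset.mul_sum]
    simp only [Finset.mem_univ, if_true]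
    ring
  simp_rw [h3]
  rw [← Finset.sum_div, ← Finset.mul_sum, Finset.sum_add_distrib, ← Finset.sum_mul,
    Finset.sum_add_distrib, ← Finset.sum_mul, ← Finset.mul_sum]
  ring

theorem simp_sv {v : Option ι → ι → ℝ} (hv : AffineIndependent ℝ v) (a : ι) :
    sv (convexHull ℝ (Set.range v)) a = ∑ o, v o a := by
  have hd := simp_det hv
  have hb := (std_mom ι).1
  have hm : MeasurableSet (stdS ι) := hb.1.measurableSet
  have hV := hb.vol_pos
  have hd' : 0 < |((simpT v).submatrix (Equiv.refl ι) id).det| := abs_pos.2 hd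
  unfold sv cen
  rw [simp_hull, vol_aff (Equiv.refl ι) _ hd _ hm, integral_aff (Equiv.refl ι) _ hd _ hm]
  have e : ∀ x : ι → ℝ, aff (simpT v) (v none) x a = ∑ i, simpT v a i * x i + v none a := by
    intro x; rfl
  simp_rw [e]
  rw [simp_lin, Fintype.sum_option]
  have hN : (0 : ℝ) < (Fintype.card ι : ℝ) + 1 := by positivity
  have ht : ∑ i, simpT v a i = ∑ i, v (some i) a - (Fintype.card ι : ℝ) * v none a := by
    simp [simpT, Finset.sum_sub_distrib]
  rw [ht]
  field_simp
  ring

theorem simp_Am {v : Option ι → ι → ℝ} (hv : AffineIndependent ℝ v) (a b : ι) :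
    Am (convexHull ℝ (Set.range v)) a b = ∑ o, v o a * v o b := by
  have hd := simp_det hv
  have hb := (std_mom ι).1
  have hm : MeasurableSet (stdS ι) := hb.1.measurableSet
  have hV := hb.vol_pos
  have hd' : 0 < |((simpT v).submatrix (Equiv.refl ι) id).det| := abs_pos.2 hd
  unfold Am
  rw [Matrix.of_apply, simp_sv hv, simp_sv hv, simp_hull, vol_aff (Equiv.refl ι) _ hd _ hm,
    integral_aff (Equiv.refl ι) _ hd _ hm]
  have e : ∀ (x : ι → ℝ) (a : ι),
      aff (simpT v) (v none) x a = ∑ i, simpT v a i * x i + v none a := by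
    intro x a; rfl
  simp_rw [e]
  rw [simp_quad, Fintype.sum_option, Fintype.sum_option, Fintype.sum_option]
  have hN : (0 : ℝ) < (Fintype.card ι : ℝ) + 1 := by positivity
  have hN2 : (0 : ℝ) < (Fintype.card ι : ℝ) + 2 := by positivity
  have ht : ∀ a, ∑ i, simpT v a i = ∑ i, v (some i) a - (Fintype.card ι : ℝ) * v none a := by
    intro a
    simp [simpT, Finset.sum_sub_distrib]
  have hq : ∑ i, simpT v a i * simpT v b i = ∑ i, v (some i) a * v (some i) b
      - (∑ i, v (some i) a) * v none b - v none a * (∑ i, v (some i) b)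
      + (Fintype.card ι : ℝ) * (v none a * v none b) := by
    have : ∀ i, simpT v a i * simpT v b i = v (some i) a * v (some i) b
        - v (some i) a * v none b - v none a * v (some i) b + v none a * v none b := by
      intro i; simp only [simpT, Matrix.of_apply]; ring
    simp_rw [this]
    rw [Finset.sum_add_distrib, Finset.sum_sub_distrib, Finset.sum_sub_distrib, Finset.sum_mul,
      Finset.mul_sum]
    simp
  rw [ht a, ht b, hq]
  field_simp
  ring

theorem simplex_mom {v : Option ι → ι → ℝ} (hv : AffineIndependent ℝ v) (φ : ι → ℝ) :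
    φ ⬝ᵥ sv (convexHull ℝ (Set.range v)) = ∑ o, φ ⬝ᵥ v o ∧
      φ ⬝ᵥ Am (convexHull ℝ (Set.range v)) *ᵥ φ = ∑ o, (φ ⬝ᵥ v o) ^ 2 := by
  constructor
  · unfold dotProduct
    simp_rw [simp_sv hv, Finset.mul_sum]
    rw [Finset.sum_comm]
  · unfold Matrix.mulVec dotProduct
    simp_rw [simp_Am hv, sq, Finset.sum_mul_sum, Finset.sum_mul, Finset.mul_sum]
    have : ∀ a : ι, ∑ b : ι, ∑ o : Option ι, φ a * (v o a * v o b * φ b) =
        ∑ o : Option ι, ∑ b : ι, φ a * (v o a * v o b * φ b) := fun a => Finset.sum_comm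
    simp_rw [this]
    rw [Finset.sum_comm]
    refine Finset.sum_congr rfl fun o _ => Finset.sum_congr rfl fun a _ =>
      Finset.sum_congr rfl fun b _ => by ring

theorem simplex_kls {v : Option ι → ι → ℝ} (hv : AffineIndependent ℝ v)
    (h0 : (0 : ι → ℝ) ∈ convexHull ℝ (Set.range v)) (hne : ∀ o, v o ≠ 0) (φ : ι → ℝ) (hφ : φ ≠ 0) :
    (φ ⬝ᵥ sv (convexHull ℝ (Set.range v))) ^ 2 <
      (Fintype.card ι : ℝ) * (φ ⬝ᵥ Am (convexHull ℝ (Set.range v)) *ᵥ φ) := by
  have hb : Body (convexHull ℝ (Set.range v)) := IsSimplex.body ⟨v, hv, rfl⟩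
  have hpos : 0 < φ ⬝ᵥ Am (convexHull ℝ (Set.range v)) *ᵥ φ := by
    have := hb.AmPD.dotProduct_mulVec_pos hφ
    simpa using this
  obtain ⟨h1, h2⟩ := simplex_mom hv φ
  rw [h1]
  rw [h2] at hpos ⊢
  rw [convexHull_range_eq_exists_affineCombination] at h0
  obtain ⟨s, w, hw0, hw1, hwv⟩ := h0
  rw [Finset.affineCombination_eq_linear_combination _ _ _ hw1] at hwv
  classical
  set a : Option ι → ℝ := fun o => if o ∈ s then w o else 0 with ha
  have ha0 : ∀ o, 0 ≤ a o := by
    intro o; simp only [ha]; split_ifs with h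
    · exact hw0 o h
    · exact le_rfl
  have ha1 : ∑ o, a o = 1 := by
    simp only [ha]; rw [Finset.sum_ite_mem, Finset.univ_inter]; exact hw1
  have hav : ∑ o, a o • v o = 0 := by
    rw [← hwv]
    simp only [ha, ite_smul, zero_smul]
    rw [Finset.sum_ite_mem, Finset.univ_inter]
  have hlt : ∀ o, a o < 1 := by
    intro o
    by_contra hcon
    have hcon' : 1 ≤ a o := not_lt.1 hcon
    have hsplit := Finset.add_sum_erase Finset.univ a (Finset.mem_univ o)
    have hrest : 0 ≤ ∑ x ∈ Finset.univ.erase o, a x := Finset.sum_nonneg fun x _ => ha0 x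
    have hz : ∑ x ∈ Finset.univ.erase o, a x = 0 := by linarith
    have hz' := (Finset.sum_eq_zero_iff_of_nonneg fun x _ => ha0 x).1 hz
    have hao : a o = 1 := by linarith
    have hs2 := Finset.add_sum_erase Finset.univ (fun x => a x • v x) (Finset.mem_univ o)
    have hz2 : ∑ x ∈ Finset.univ.erase o, a x • v x = 0 :=
      Finset.sum_eq_zero fun x hx => by rw [hz' x hx, zero_smul]
    rw [hav, hz2, add_zero] at hs2
    simp only [hao, one_smul] at hs2
    exact hne o hs2
  have hsq : ∑ o, a o ^ 2 < 1 := by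
    rw [← ha1]
    obtain ⟨o, ho⟩ : ∃ o, 0 < a o := by
      by_contra hc
      push_neg at hc
      have : ∑ o, a o ≤ 0 := Finset.sum_nonpos fun o _ => hc o
      linarith
    refine Finset.sum_lt_sum (fun x _ => ?_) ⟨o, Finset.mem_univ o, ?_⟩
    · nlinarith [ha0 x, hlt x]
    · nlinarith [hlt o]
  have hya : ∑ o, a o * (φ ⬝ᵥ v o) = 0 := by
    have := congrArg (fun z => φ ⬝ᵥ z) hav
    simp only [dotProduct_sum, dotProduct_smul, smul_eq_mul, dotProduct_zero] at this
    exact this
  have hsum : ∑ o, φ ⬝ᵥ v o = ∑ o, (1 - a o) * (φ ⬝ᵥ v o) := by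
    simp_rw [sub_mul, one_mul]
    rw [Finset.sum_sub_distrib, hya, sub_zero]
  have hcs := Finset.sum_mul_sq_le_sq_mul_sq Finset.univ (fun o => 1 - a o) (fun o => φ ⬝ᵥ v o)
  have hn : ∑ o, (1 - a o) ^ 2 < (Fintype.card ι : ℝ) := by
    have : ∀ o, (1 - a o) ^ 2 = 1 - 2 * a o + a o ^ 2 := fun o => by ring
    simp_rw [this]
    rw [Finset.sum_add_distrib, Finset.sum_sub_distrib, ← Finset.mul_sum, ha1]
    simp only [Finset.sum_const, Finset.card_univ, Fintype.card_option, nsmul_eq_mul, mul_one]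
    push_cast
    linarith
  rw [hsum]
  exact lt_of_le_of_lt hcs (mul_lt_mul_of_pos_right hn hpos)

end Vale.Agent.P254
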