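import Vale.Agent.P254.FSM
import Vale.Agent.P254.Aff

namespace Vale.Agent.P254

open MeasureTheory Matrix

/-- Vertices of the standard simplex. -/
def stdV (ι : Type) [DecidableEq ι] : Option ι → ι → ℝ
  | none => 0
  | some i => Pi.single i 1

/-- The standard simplex. -/
def stdS (ι : Type) [DecidableEq ι] : Set (ι → ℝ) := convexHull ℝ (Set.range (stdV ι))

theorem std_simplex (ι : Type) [Fintype ι] [DecidableEq ι] : IsSimplex (stdS ι) := by
  refine ⟨stdV ι, ?_, rfl⟩
  rw [affineIndependent_iff]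
  intro s w hw hs
  have h1 : ∀ i, some i ∈ s → w (some i) = 0 := by
    intro i hi
    have h := congrFun hs i
    rw [Finset.sum_apply, Finset.sum_eq_single (some i)] at h
    · simpa [stdV] using h
    · rintro (_ | j) _ hj
      · simp [stdV]
      · have : i ≠ j := fun h => hj (by rw [h])
        simp [stdV, this]
    · intro h; exact absurd hi h
  rintro (_ | i) he
  · rw [Finset.sum_eq_single none] at hw
    · exact hw
    · rintro (_ | j) hj hj'
      · exact absurd rfl hj'
      · exact h1 j hj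
    · intro h; exact absurd he h
  · exact h1 i he

/-- The moment statement. -/
def StdP (ι : Type) [Fintype ι] [DecidableEq ι] : Prop :=
  Body (stdS ι) ∧ ((Fintype.card ι).factorial : ℝ) * vol (stdS ι) = 1 ∧
    sv (stdS ι) = (fun _ => 1) ∧ Am (stdS ι) = 1

theorem std_vert (ι : Type) [DecidableEq ι] (o : Option ι) : stdV ι o ∈ stdS ι :=
  subset_convexHull ℝ _ ⟨o, rfl⟩

theorem std_zero (ι : Type) [DecidableEq ι] : (0 : ι → ℝ) ∈ stdS ι := std_vert ι none

theorem std_transport {ι κ : Type} [Fintype ι] [Fintype κ] [DecidableEq ι] [DecidableEq κ]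
    (e : ι ≃ κ) (h : StdP ι) : StdP κ := by
  obtain ⟨hb, hv, hs, hA⟩ := h
  set T : Matrix κ ι ℝ := Matrix.of fun k i => if e.symm k = i then 1 else 0 with hT
  have hsub : T.submatrix e id = 1 := by
    ext i j
    simp [hT, Matrix.one_apply]
  have hdet : (T.submatrix e id).det ≠ 0 := by rw [hsub]; simp
  have haff : ∀ x : ι → ℝ, aff T 0 x = fun k => x (e.symm k) := by
    intro x
    ext k
    simp [aff, hT, Matrix.mulVec, dotProduct]
  have hvert : ∀ o, aff T 0 (stdV ι o) = stdV κ (o.map e) := by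
    rintro (_ | i)
    · rw [haff]; rfl
    · rw [haff]
      ext k
      simp only [stdV, Option.map_some, Pi.single_apply, Equiv.symm_apply_eq]
  have himg : aff T 0 '' stdS ι = stdS κ := by
    rw [stdS, hull_aff, stdS]
    congr 1
    ext y
    constructor
    · rintro ⟨_, ⟨o, rfl⟩, rfl⟩
      exact ⟨_, (hvert o).symm⟩
    · rintro ⟨o, rfl⟩
      refine ⟨_, ⟨o.map e.symm, rfl⟩, ?_⟩
      rw [hvert]
      cases o <;> simp
  have hm : MeasurableSet (stdS ι) := hb.1.isClosed.measurableSet
  have hc : Fintype.card κ = Fintype.card ι := (Fintype.card_congr e).symm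
  have hvol : vol (stdS κ) = vol (stdS ι) := by
    rw [← himg, vol_aff e T hdet 0 hm, hsub]; simp
  have hint : ∀ f : (κ → ℝ) → ℝ,
      ∫ y in stdS κ, f y = ∫ x in stdS ι, f (fun k => x (e.symm k)) := by
    intro f
    rw [← himg, integral_aff e T hdet 0 hm, hsub]
    simp [haff]
  have hsv : ∀ k, sv (stdS κ) k = sv (stdS ι) (e.symm k) := by
    intro k
    simp only [sv, cen, hc, hvol, hint]
  refine ⟨himg ▸ body_aff e T hdet 0 hb, by rw [hc, hvol, hv], ?_, ?_⟩
  · ext k
    rw [hsv, hs]
  · ext k l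
    have h := congrFun (congrFun hA (e.symm k)) (e.symm l)
    simp only [Am, Matrix.of_apply, hc, hvol, hint, hsv] at h ⊢
    rw [h]
    simp [Matrix.one_apply]

theorem std_empty (ι : Type) [Fintype ι] [DecidableEq ι] [IsEmpty ι] : StdP ι := by
  have hu : stdS ι = Set.univ := by
    ext x
    simp only [Set.mem_univ, iff_true]
    rw [Subsingleton.elim x 0]
    exact std_zero ι
  refine ⟨⟨?_, ?_, ?_⟩, ?_, Subsingleton.elim _ _, Subsingleton.elim _ _⟩
  · exact (Set.toFinite _).isCompact
  · exact convex_convexHull ℝ _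
  · rw [hu]; simp
  · rw [hu, vol, Measure.volume_pi_eq_dirac (0 : ι → ℝ)]
    simp

theorem std_unit_eq : stdS Unit = (MeasurableEquiv.funUnique Unit ℝ) ⁻¹' Set.Icc 0 1 := by
  ext x
  constructor
  · intro hx
    have hc : Convex ℝ {x : Unit → ℝ | x default ∈ Set.Icc (0 : ℝ) 1} :=
      (convex_Icc (0 : ℝ) 1).is_linear_preimage (f := fun x : Unit → ℝ => x default)
        ⟨fun _ _ => rfl, fun _ _ => rfl⟩
    refine convexHull_min ?_ hc hx
    rintro _ ⟨_ | i, rfl⟩ <;> simp [stdV]
  · intro hx
    have hx' : x default ∈ Set.Icc (0 : ℝ) 1 := hx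
    have h := (convex_convexHull ℝ (Set.range (stdV Unit))) (std_vert Unit none)
      (std_vert Unit (some ())) (sub_nonneg.2 hx'.2) hx'.1 (sub_add_cancel _ _)
    have e : x = (1 - x default) • stdV Unit none + x default • stdV Unit (some ()) := by
      funext u
      cases u
      simp [stdV]
    rw [e]
    exact h

theorem std_unit_int (g : ℝ → ℝ) :
    ∫ x in stdS Unit, g (x default) = ∫ t in (0 : ℝ)..1, g t := by
  rw [std_unit_eq, intervalIntegral.integral_of_le zero_le_one, ← integral_Icc_eq_integral_Ioc]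
  exact (volume_preserving_funUnique Unit ℝ).setIntegral_preimage_emb
    (MeasurableEquiv.funUnique Unit ℝ).measurableEmbedding g _

theorem std_unit : StdP Unit := by
  have hv : vol (stdS Unit) = 1 := by
    rw [vol, std_unit_eq,
      (volume_preserving_funUnique Unit ℝ).measure_preimage measurableSet_Icc.nullMeasurableSet]
    simp
  have h1 : ∫ x in stdS Unit, x default = 1 / 2 := by
    rw [std_unit_int fun t => t]
    simp
  have h2 : ∫ x in stdS Unit, x default * x default = 1 / 3 := by
    rw [std_unit_int fun t => t * t]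
    simp only [← sq]
    rw [integral_pow]
    norm_num
  have hs : sv (stdS Unit) = fun _ => 1 := by
    ext u
    simp only [sv, cen, hv]
    rw [show u = default from rfl, h1]
    norm_num
  refine ⟨⟨(Set.finite_range _).isCompact_convexHull ℝ, convex_convexHull ℝ _,
    int_of_vol (convex_convexHull ℝ _) (hv.symm ▸ one_pos)⟩, by simp [hv], hs, ?_⟩
  ext u w
  simp only [Am, Matrix.of_apply, hv, hs]
  rw [show u = default from rfl, show w = default from rfl, h2]
  norm_num

theorem std_sum (κ : Type) [DecidableEq κ] :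
    freeSum (stdS κ) (stdS Unit) = stdS (κ ⊕ Unit) := by
  have hl : IsLinearMap ℝ fun x : κ → ℝ => Sum.elim x (0 : Unit → ℝ) :=
    ⟨fun x y => by ext (a | a) <;> simp, fun c x => by ext (a | a) <;> simp⟩
  have hr : IsLinearMap ℝ fun y : Unit → ℝ => Sum.elim (0 : κ → ℝ) y :=
    ⟨fun x y => by ext (a | a) <;> simp, fun c x => by ext (a | a) <;> simp⟩
  have vl : ∀ o, Sum.elim (stdV κ o) (0 : Unit → ℝ) = stdV (κ ⊕ Unit) (o.map Sum.inl) := by
    rintro (_ | i)
    · ext (a | a) <;> simp [stdV]
    · ext (a | a) <;> simp [stdV, Pi.single_apply]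
  have vr : ∀ o, Sum.elim (0 : κ → ℝ) (stdV Unit o) = stdV (κ ⊕ Unit) (o.map Sum.inr) := by
    rintro (_ | i)
    · ext (a | a) <;> simp [stdV]
    · ext (a | a) <;> simp [stdV, Pi.single_apply]
  have hcv : Convex ℝ (stdS (κ ⊕ Unit)) := convex_convexHull ℝ _
  apply Set.Subset.antisymm
  · refine convexHull_min (Set.union_subset ?_ ?_) hcv
    · rintro _ ⟨x, hx, rfl⟩
      refine convexHull_min ?_ (hcv.is_linear_preimage hl) hx
      rintro _ ⟨o, rfl⟩
      rw [Set.mem_preimage, vl]
      exact std_vert _ _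
    · rintro _ ⟨x, hx, rfl⟩
      refine convexHull_min ?_ (hcv.is_linear_preimage hr) hx
      rintro _ ⟨o, rfl⟩
      rw [Set.mem_preimage, vr]
      exact std_vert _ _
  · refine convexHull_min ?_ (convex_convexHull ℝ _)
    rintro _ ⟨_ | a | a, rfl⟩
    · exact subset_convexHull ℝ _ (Or.inl ⟨_, std_vert κ none, vl none⟩)
    · exact subset_convexHull ℝ _ (Or.inl ⟨_, std_vert κ (some a), vl (some a)⟩)
    · exact subset_convexHull ℝ _ (Or.inr ⟨_, std_vert Unit (some a), vr (some a)⟩)

theorem std_step (κ : Type) [Fintype κ] [DecidableEq κ] (h : StdP κ) : StdP (κ ⊕ Unit) := by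
  obtain ⟨hb, hv, hs, hA⟩ := h
  obtain ⟨hb', hv', hs', hA'⟩ := std_unit
  have h0 := std_zero κ
  have h0' := std_zero Unit
  refine ⟨?_, ?_, ?_, ?_⟩
  · rw [← std_sum]; exact fs_body hb hb' h0 h0'
  · rw [← std_sum, fs_vol hb hb' h0 h0', hv, hv', one_mul]
  · rw [← std_sum, fs_sv hb hb' h0 h0', hs, hs']
    ext (a | a) <;> rfl
  · rw [← std_sum, fs_Am hb hb' h0 h0', hA, hA', Matrix.fromBlocks_one]

theorem std_fin (n : ℕ) : StdP (Fin n) := by
  induction n with
  | zero => exact std_empty _
  | succ n ih =>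
    exact std_transport (Fintype.equivOfCardEq (by simp)) (std_step _ ih)

theorem std_mom (ι : Type) [Fintype ι] [DecidableEq ι] :
    Body (stdS ι) ∧ ((Fintype.card ι).factorial : ℝ) * vol (stdS ι) = 1 ∧
      sv (stdS ι) = (fun _ => 1) ∧ Am (stdS ι) = 1 :=
  std_transport (Fintype.equivFin ι).symm (std_fin _)

end Vale.Agent.P254
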